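import Vale.Agent.P242.Ibp

/-! P242 Av (TASK, owner helper5; helper names start with av_). Smoothness of the averages. Work with a general continuous compactly supported kernel `k : E n → ℝ` and `A k f q = ∫ p, f (q.1 + q.2 • p) * k p`.
`hasFDerivAt_integral_of_dominated_of_fderiv_le` on `ball q 1`, the bound comes from continuity of `fderiv f` on a compact ball times the indicator or `|k p|`. The derivative at `(v, s)` is `∫ fderiv f (x + r p) (v + s p) * k p = ∑ i, v i * A k (pd i f) q + s * ∑ i, A (p i * k) (pd i f) q`.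
Induction on `m : ℕ` for all `k, f` with `contDiff_succ_iff_fderiv_apply` (finite dimension), then `contDiff_infty`. -/

namespace Vale.Agent.P242

open MeasureTheory Set Metric Filter Topology
open scoped ENNReal ContDiff RealInnerProductSpace

variable {n : ℕ}

variable {f : E n → ℝ} {g : ℝ → ℝ} {b : ℝ}

theorem av_sm {k : E n → ℝ} (hk : ContDiff ℝ ∞ k) (hc : HasCompactSupport k)
    (hf : ContDiff ℝ ∞ f) : ContDiff ℝ ∞ fun q : E n × ℝ => ∫ p, f (q.1 + q.2 • p) * k p := by
  have h1 : ContDiffOn ℝ ∞ (fun q : E n × ℝ =>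
      (convolution (fun _ : E n => (1 : ℝ)) (fun p => f (q.1 + q.2 • -p) * k (-p))
        (ContinuousLinearMap.mul ℝ ℝ) volume) 0) univ := by
    refine contDiffOn_convolution_right_with_param_comp (n := ⊤) (ContinuousLinearMap.mul ℝ ℝ)
      (v := fun _ => 0) (g := fun (q : E n × ℝ) p => f (q.1 + q.2 • -p) * k (-p))
      (k := -tsupport k) contDiffOn_const isOpen_univ hc.isCompact.neg
      (fun q p _ hp => ?_) (locallyIntegrable_const 1) (ContDiff.contDiffOn ?_)
    · rw [image_eq_zero_of_notMem_tsupport (f := k) fun h => hp (mem_neg.2 h), mul_zero]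
    · change ContDiff ℝ ∞ fun z : (E n × ℝ) × E n => f (z.1.1 + z.1.2 • -z.2) * k (-z.2)
      exact (hf.comp (contDiff_fst.fst.add (contDiff_fst.snd.smul contDiff_snd.neg))).mul
        (hk.comp contDiff_snd.neg)
  rw [contDiffOn_univ] at h1
  simpa [convolution] using h1

/-- The derivative of the integrand. -/
noncomputable def avD (k f : E n → ℝ) (q : E n × ℝ) (p : E n) : E n × ℝ →L[ℝ] ℝ :=
  k p • (fderiv ℝ f (q.1 + q.2 • p)).comp
    (ContinuousLinearMap.fst ℝ (E n) ℝ + (ContinuousLinearMap.snd ℝ (E n) ℝ).smulRight p)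

theorem av_cont {k : E n → ℝ} (hk : Continuous k) (hf : ContDiff ℝ ∞ f) :
    Continuous fun z : (E n × ℝ) × E n => avD k f z.1 z.2 := by
  have h1 : Continuous (fderiv ℝ f) := hf.continuous_fderiv (by simp)
  have h2 : Continuous fun p : E n => (ContinuousLinearMap.snd ℝ (E n) ℝ).smulRight p :=
    (ContinuousLinearMap.smulRightL ℝ (E n × ℝ) (E n) (ContinuousLinearMap.snd ℝ (E n) ℝ)).continuous
  unfold avD
  exact (hk.comp continuous_snd).smul ((h1.comp (by fun_prop)).clm_comp
    (continuous_const.add (h2.comp continuous_snd)))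

theorem av_has {k : E n → ℝ} (hf : ContDiff ℝ ∞ f) (q : E n × ℝ) (p : E n) :
    HasFDerivAt (fun q : E n × ℝ => f (q.1 + q.2 • p) * k p) (avD k f q p) q := by
  have h1 : HasFDerivAt (fun q : E n × ℝ => q.1 + q.2 • p)
      (ContinuousLinearMap.fst ℝ (E n) ℝ + (ContinuousLinearMap.snd ℝ (E n) ℝ).smulRight p) q :=
    (ContinuousLinearMap.fst ℝ (E n) ℝ +
      (ContinuousLinearMap.snd ℝ (E n) ℝ).smulRight p).hasFDerivAt
  have h2 := (hf.differentiable (by simp) (q.1 + q.2 • p)).hasFDerivAt.comp q h1
  exact h2.mul_const (k p)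

theorem av_int {k : E n → ℝ} (hk : Continuous k) (hc : HasCompactSupport k) (hf : ContDiff ℝ ∞ f)
    (q : E n × ℝ) : Integrable (avD k f q) := by
  have h1 : Continuous (avD k f q) := (av_cont hk hf).comp (Continuous.prodMk_right q)
  refine h1.integrable_of_hasCompactSupport (hc.mono fun p hp h0 => hp ?_)
  unfold avD
  rw [h0, zero_smul]

theorem av_der {k : E n → ℝ} (hk : Continuous k) (hc : HasCompactSupport k) (hf : ContDiff ℝ ∞ f)
    (q : E n × ℝ) : HasFDerivAt (fun q : E n × ℝ => ∫ p, f (q.1 + q.2 • p) * k p)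
      (∫ p, avD k f q p) q := by
  have hF : ∀ z : E n × ℝ, Continuous fun p => f (z.1 + z.2 • p) * k p := fun z =>
    (hf.continuous.comp (by fun_prop)).mul hk
  obtain ⟨C, hC⟩ := ((isCompact_closedBall q 1).prod hc.isCompact).exists_bound_of_continuousOn
    (av_cont hk hf).continuousOn
  refine hasFDerivAt_integral_of_dominated_of_fderiv_le (𝕜 := ℝ) (F' := avD k f)
    (bound := (tsupport k).indicator fun _ => C) (closedBall_mem_nhds q one_pos)
    (Eventually.of_forall fun z => (hF z).aestronglyMeasurable)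
    ((hF q).integrable_of_hasCompactSupport hc.mul_left) (av_int hk hc hf q).aestronglyMeasurable
    (Eventually.of_forall fun p z hz => ?_) ?_
    (Eventually.of_forall fun p z _ => av_has hf z p)
  · by_cases hp : p ∈ tsupport k
    · rw [indicator_of_mem hp]
      exact hC (z, p) ⟨hz, hp⟩
    · rw [indicator_of_notMem hp]
      unfold avD
      rw [image_eq_zero_of_notMem_tsupport hp, zero_smul, norm_zero]
  · exact (integrable_indicator_iff (isClosed_tsupport k).measurableSet).2
      (integrableOn_const hc.isCompact.measure_lt_top.ne)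

theorem av_smooth (h : Prof b g) (hf : ContDiff ℝ ∞ f) : ContDiff ℝ ∞ (av g f) := by
  exact av_sm h.smooth.1 h.smooth.2 hf

theorem av_fderiv (h : Prof b g) (hf : ContDiff ℝ ∞ f) (x v : E n) (r s : ℝ) :
    fderiv ℝ (av g f) (x, r) (v, s) =
      av g (D v f) (x, r) + s * I g fun p => fderiv ℝ f (x + r • p) p := by
  have hk := (h.smooth (n := n)).1.continuous
  have hc := (h.smooth (n := n)).2
  have h1 : Continuous (fderiv ℝ f) := hf.continuous_fderiv (by simp)
  have h2 : Continuous fun p : E n => fderiv ℝ f (x + r • p) := h1.comp (by fun_prop)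
  have e : fderiv ℝ (av g f) (x, r) = ∫ p, avD (fun p : E n => g (‖p‖ ^ 2)) f (x, r) p :=
    (av_der hk hc hf (x, r)).fderiv
  rw [e, ContinuousLinearMap.integral_apply (av_int hk hc hf (x, r))]
  unfold av I sc D
  have i1 := integrable_rad h (h2.clm_apply (continuous_const (y := v)))
  have i2 := (integrable_rad h (h2.clm_apply continuous_id')).const_mul s
  rw [← integral_const_mul]
  refine Eq.trans (integral_congr_ae (Eventually.of_forall fun p => ?_)) (integral_add i1 i2)
  simp [avD]
  ring

end Vale.Agent.P242
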