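import Vale.Agent.P242.Defs

/-! P242 Calc (TASK, owner helper5; helper names start with cal_). Calculus of `D`, `eu`, `lap`, `mu`, `sc`.
`D2_eq`: `fderiv_clm_apply` (or `HasFDerivAt.clm_apply`). `D_comm`: `ContDiffAt.isSymmSndFDerivAt`. `D_eq_sum`: `v = ∑ i, v i • single i 1` (`EuclideanSpace.basisFun`, `OrthonormalBasis.sum_repr`).
`D_lap`: `fderiv_fun_sum`, `D_comm` twice (as equality of functions). `eu_eu`: product rule for `p ↦ fderiv f p p`. Scaling: chain rule, `HasFDerivAt.comp`. -/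

namespace Vale.Agent.P242

open MeasureTheory Set Metric Filter Topology
open scoped ENNReal ContDiff RealInnerProductSpace

variable {n : ℕ}

variable {f W : E n → ℝ}

theorem smooth_D (hf : ContDiff ℝ ∞ f) (v : E n) : ContDiff ℝ ∞ (D v f) := by
  exact (hf.fderiv_right (m := ∞) le_rfl).clm_apply contDiff_const

theorem smooth_lap (hf : ContDiff ℝ ∞ f) : ContDiff ℝ ∞ (lap f) := by
  exact ContDiff.sum fun i _ => smooth_D (smooth_D hf _) _

theorem smooth_eu (hf : ContDiff ℝ ∞ f) : ContDiff ℝ ∞ (eu f) := by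
  exact (hf.fderiv_right (m := ∞) le_rfl).clm_apply contDiff_id

theorem smooth_sc (hf : ContDiff ℝ ∞ f) (x : E n) (r : ℝ) : ContDiff ℝ ∞ (sc f x r) := by
  exact hf.comp (contDiff_const.add (contDiff_id.const_smul r))

theorem D2_eq (hf : ContDiff ℝ ∞ f) (u v x : E n) :
    D u (D v f) x = fderiv ℝ (fderiv ℝ f) x u v := by
  have h := ((hf.fderiv_right (m := ∞) le_rfl).differentiable (by simp) x).hasFDerivAt
  have e := (h.clm_apply (hasFDerivAt_const v x)).fderiv
  exact (congrArg (fun L : E n →L[ℝ] ℝ => L u) e).trans (by simp)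

theorem D_comm (hf : ContDiff ℝ ∞ f) (u v : E n) : D u (D v f) = D v (D u f) := by
  funext x
  rw [D2_eq hf, D2_eq hf]
  exact hf.contDiffAt.isSymmSndFDerivAt (by
    rw [minSmoothness_of_isRCLikeNormedField]
    exact WithTop.coe_le_coe.2 (le_top (a := (2 : ℕ∞)))) u v

theorem D_eq_sum (f : E n → ℝ) (v x : E n) : D v f x = ∑ i, v i * pd i f x := by
  have e := (EuclideanSpace.basisFun (Fin n) ℝ).sum_repr v
  conv_lhs => rw [D, ← e, map_sum]
  simp [pd]

theorem D_lap (hf : ContDiff ℝ ∞ f) (v : E n) : D v (lap f) = lap (D v f) := by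
  funext x
  have e := fderiv_fun_sum (𝕜 := ℝ) (u := Finset.univ) (A := fun i => pd i (pd i f)) (x := x)
    fun i _ => (smooth_D (smooth_D hf _) _).differentiable (by simp) x
  refine (congrArg (fun L : E n →L[ℝ] ℝ => L v) e).trans ?_
  rw [sum_apply]
  refine Finset.sum_congr rfl fun i _ => ?_
  exact (congrFun (D_comm (smooth_D hf _) v _) x).trans
    (congrArg (fun g => D (EuclideanSpace.single i 1) g x) (D_comm hf v _))

theorem eu_D (hf : ContDiff ℝ ∞ f) (v p : E n) : eu (D v f) p = D p (D v f) p := rfl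

theorem eu_eu (hf : ContDiff ℝ ∞ f) (p : E n) : eu (eu f) p = D p (D p f) p + eu f p := by
  have h := ((hf.fderiv_right (m := ∞) le_rfl).differentiable (by simp) p).hasFDerivAt
  have e := (h.clm_apply (hasFDerivAt_id p)).fderiv
  rw [D2_eq hf, add_comm]
  exact (congrArg (fun L : E n →L[ℝ] ℝ => L p) e).trans (by simp [eu])

theorem smooth_mu (hf : ContDiff ℝ ∞ f) (v : E n) :
    ContDiff ℝ ∞ (fun p => mu f p p p) ∧ ContDiff ℝ ∞ (fun p => mu f p p v) := by
  have h := (hf.fderiv_right (m := ∞) le_rfl).fderiv_right (m := ∞) le_rfl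
  simp only [mu, D2_eq hf]
  exact ⟨(contDiff_const.mul ((h.clm_apply contDiff_id).clm_apply contDiff_id)).sub
      ((smooth_lap hf).mul (contDiff_id.inner ℝ contDiff_id)),
    (contDiff_const.mul ((h.clm_apply contDiff_id).clm_apply contDiff_const)).sub
      ((smooth_lap hf).mul (contDiff_id.inner ℝ contDiff_const))⟩

theorem D_sc (hf : ContDiff ℝ ∞ f) (x : E n) (r : ℝ) (v : E n) :
    D v (sc f x r) = fun p => r * sc (D v f) x r p := by
  funext p
  have e := ((hf.differentiable (by simp) _).hasFDerivAt.comp p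
    (((hasFDerivAt_id p).const_smul r).const_add x)).fderiv
  exact (congrArg (fun L : E n →L[ℝ] ℝ => L v) e).trans (by simp [sc, D])

theorem cal_D2 (hf : ContDiff ℝ ∞ f) (x : E n) (r : ℝ) (p u v : E n) :
    D u (D v (sc f x r)) p = r ^ 2 * D u (D v f) (x + r • p) := by
  have h := smooth_D hf v
  rw [D_sc hf, D, fderiv_const_mul ((smooth_sc h x r).differentiable (by simp) p),
    smul_apply, smul_eq_mul, sq, mul_assoc]
  exact congrArg (r * ·) (congrFun (D_sc h x r u) p)

theorem lap_sc (hf : ContDiff ℝ ∞ f) (x : E n) (r : ℝ) :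
    lap (sc f x r) = fun p => r ^ 2 * sc (lap f) x r p := by
  funext p
  rw [lap, sc, lap, Finset.mul_sum]
  exact Finset.sum_congr rfl fun i _ => cal_D2 hf x r p _ _

theorem mu_sc (hf : ContDiff ℝ ∞ f) (x : E n) (r : ℝ) (p u v : E n) :
    mu (sc f x r) p u v = r ^ 2 * mu f (x + r • p) u v := by
  rw [mu, mu, cal_D2 hf, lap_sc hf]
  simp only [sc]
  ring

theorem pos_sc (hf : ContDiff ℝ ∞ f) (h : Lin f) {x : E n} (hx : x ∈ ball (0 : E n) 1) {r : ℝ}
    (hr : r ∈ Icc (0 : ℝ) 1) : Pos (sc f x r) := by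
  refine ⟨smooth_sc hf x r, fun p hp v => ?_⟩
  rw [mu_sc hf]
  refine mul_nonneg (sq_nonneg r) (h _ (mem_ball_zero_iff.2 ((norm_add_le _ _).trans_lt ?_)) v)
  rw [norm_smul, Real.norm_of_nonneg hr.1]
  nlinarith [mem_ball_zero_iff.1 hx, hr.1, hr.2, norm_nonneg p]

end Vale.Agent.P242
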