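import Vale.Agent.P242.IdB

/-! P242 KitE (TASK, owner helper5; helper names start with kit_). Existence of the profiles. Let `β s = Real.smoothTransition ((b - s) / (b - a))` (one left of `a`, zero right of `b`, values in `[0,1]`). `exists_prim` for `-β` gives `φ` with `deriv φ = -β`, antitone, zero right of `b`, so nonnegative. `φ`: `(a, b) = (1, 4)`.
`χ := β` is not enough since `deriv χ ≤ 0` is needed: use `Real.smoothTransition.monotone` (antitone function has nonpositive derivative) with `(a, b) = (4, 9)`. `ψ = c * φ0` with `(a, b) = (1/2, 1)` and `c⁻¹ = ∫ 2 β (‖p‖^2) > 0` (`integral_pos_of_integrable_nonneg_nonzero` or `Continuous.integral_pos_of_hasCompactSupport_nonneg_nonzero`). `g`: `exists_prim` for `-kap / 2`. -/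

namespace Vale.Agent.P242

open MeasureTheory Set Metric Filter Topology
open scoped ENNReal ContDiff RealInnerProductSpace

variable {n : ℕ}

theorem kit_step {a b : ℝ} (hab : a < b) : ∃ β : ℝ → ℝ, Prof b β ∧ (∀ s, 0 ≤ β s) ∧
    (∀ s, s ≤ a → β s = 1) ∧ Antitone β := by
  have h0 : 0 < b - a := sub_pos.2 hab
  refine ⟨fun s => Real.smoothTransition ((b - s) / (b - a)), ⟨?_, fun s hs => ?_⟩,
    fun s => Real.smoothTransition.nonneg _, fun s hs => ?_, fun s s' hs => ?_⟩
  · exact Real.smoothTransition.contDiff.comp ((contDiff_const.sub contDiff_id).div_const _)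
  · exact Real.smoothTransition.zero_of_nonpos (div_nonpos_of_nonpos_of_nonneg (by linarith) h0.le)
  · exact Real.smoothTransition.one_of_one_le ((one_le_div h0).2 (by linarith))
  · exact Real.smoothTransition.monotone (div_le_div_of_nonneg_right (by linarith) h0.le)

theorem kit_mul {b : ℝ} {g : ℝ → ℝ} (h : Prof b g) (c : ℝ) : Prof b fun s => c * g s :=
  ⟨contDiff_const.mul h.1, fun s hs => by simp [h.2 s hs]⟩

theorem kit_prim {b : ℝ} {g : ℝ → ℝ} (h : Prof b g) (c : ℝ) :
    ∃ G, Prof b G ∧ ∀ s, deriv G s = c * g s := exists_prim (kit_mul h c)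

theorem exists_kit (n : ℕ) : Nonempty (Kit n) := by
  obtain ⟨β₁, a1, a2, a3, -⟩ := kit_step (a := 1 / 2) (b := 1) (by norm_num)
  obtain ⟨β₂, b1, b2, b3, -⟩ := kit_step (a := 1) (b := 4) (by norm_num)
  obtain ⟨χ, c1, c2, c3, c4⟩ := kit_step (a := 4) (b := 9) (by norm_num)
  have hc : 0 < ∫ p : E n, β₁ (‖p‖ ^ 2) :=
    (a1.smooth (n := n)).1.continuous.integral_pos_of_hasCompactSupport_nonneg_nonzero
      a1.smooth.2 (fun p => a2 _) (x := 0) (by rw [a3 _ (by simp)]; exact one_ne_zero)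
  obtain ⟨ψ, d1, d2⟩ := kit_prim a1 (-(2 * ∫ p : E n, β₁ (‖p‖ ^ 2))⁻¹)
  obtain ⟨φ, e1, e2⟩ := kit_prim b1 (-1)
  obtain ⟨g, f1, f2⟩ := kit_prim (d1.kap (n := n)) (-1 / 2)
  have e3 : ∀ s, deriv φ s ≤ 0 := fun s => by rw [e2]; linarith [b2 s]
  have e4 : Antitone φ := antitone_of_deriv_nonpos (e1.1.differentiable (by simp)) e3
  refine ⟨⟨ψ, φ, χ, g, d1, e1, c1, f1, fun s => by rw [f2]; ring, ?_, fun s => ?_, e3,
    fun s hs => by rw [e2, b3 s hs]; norm_num, c2, fun s => c4.deriv_nonpos,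
    fun s hs => (c3 s hs).ge⟩⟩
  · simp only [I, eta, d2, one_mul, ← mul_assoc]
    rw [integral_const_mul]
    field_simp
  · rw [← e1.2 (max s 4) (le_max_right _ _)]
    exact e4 (le_max_left _ _)

end Vale.Agent.P242
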