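import Vale.Agent.P242.Calc

/-! P242 Psd (TASK, owner helper5; helper names start with psd_). Pointwise inequalities. `mu W p` is a symmetric bilinear form (`D2_eq`, `D_comm`). `mu_cs`: expand `0 ≤ mu (l u ± v) (l u ± v)`.
`mu_tr`: the sum of `mu (single i 1) (single i 1)` is `-(2n-2) lap`. `mu_le`: for a nonnegative symmetric form `B v v ≤ (∑ i, B e_i e_i) ‖v‖^2`; a crude factor is allowed: `|B e_i e_j| ≤ (B e_i e_i + B e_j e_j)/2 ≤ tr` and `|v i| ≤ ‖v‖` give `B v v ≤ n^2 tr ‖v‖^2`. `hess_le`: `(n-2) D u (D v W) = -mu u v - lap ⟪u,v⟫`, `n - 2 ≥ 1`. -/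

namespace Vale.Agent.P242

open MeasureTheory Set Metric Filter Topology
open scoped ENNReal ContDiff RealInnerProductSpace

variable {n : ℕ}

variable {W : E n → ℝ} {p : E n}

theorem psd_bil (hW : ContDiff ℝ ∞ W) (p : E n) : ∃ B : E n →L[ℝ] E n →L[ℝ] ℝ,
    (∀ u v, mu W p u v = B u v) ∧ ∀ u v, B u v = B v u := by
  obtain ⟨J, hJ⟩ : ∃ J : E n →L[ℝ] E n →L[ℝ] ℝ, ∀ u v, J u v = ⟪u, v⟫ :=
    ⟨innerSL ℝ, fun _ _ => rfl⟩
  have h1 : ∀ u v, mu W p u v =
      (-((n : ℝ) - 2) • fderiv ℝ (fderiv ℝ W) p - lap W p • J) u v := by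
    intro u v
    simp only [mu, D2_eq hW, sub_apply, smul_apply, smul_eq_mul, hJ]
  refine ⟨_, h1, fun u v => ?_⟩
  rw [← h1, ← h1, mu, mu, D_comm hW, real_inner_comm]

theorem psd_cs (hW : ContDiff ℝ ∞ W) (h : ∀ v, 0 ≤ mu W p v v) (u v : E n) {l : ℝ} (hl : 0 < l) :
    2 * |mu W p u v| ≤ l * mu W p u u + mu W p v v / l := by
  obtain ⟨B, hB, hs⟩ := psd_bil hW p
  have h1 := h (l • u + v)
  have h2 := h (l • u - v)
  simp only [hB, map_add, map_sub, map_smul, add_apply,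
    sub_apply, smul_apply, smul_eq_mul] at h1 h2 ⊢
  rw [hs v u] at h1 h2
  have h3 : l * B u u + B v v / l = (l * (l * B u u) + B v v) / l := by field_simp
  rw [h3, le_div_iff₀ hl]
  rcases abs_cases (B u v) with h4 | h4 <;> rw [h4.1] <;> linarith

theorem psd_tr (W : E n → ℝ) (p : E n) :
    ∑ i, mu W p (EuclideanSpace.single i 1) (EuclideanSpace.single i 1) =
      (2 * (n : ℝ) - 2) * -lap W p := by
  have h1 : ∀ i : Fin n, mu W p (EuclideanSpace.single i 1) (EuclideanSpace.single i 1) =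
      -((n : ℝ) - 2) * pd i (pd i W) p - lap W p := fun i => by
    rw [mu, real_inner_self_eq_norm_sq, EuclideanSpace.norm_single, norm_one, one_pow, mul_one]
    rfl
  simp only [h1, Finset.sum_sub_distrib, ← Finset.mul_sum, Finset.sum_const, Finset.card_univ,
    Fintype.card_fin, nsmul_eq_mul]
  rw [show ∑ i, pd i (pd i W) p = lap W p from rfl]
  ring

theorem mu_cs (hW : ContDiff ℝ ∞ W) (h : ∀ v, 0 ≤ mu W p v v) (u v : E n) {l : ℝ} (hl : 0 < l) :
    |mu W p u v| ≤ l * mu W p u u + mu W p v v / l := by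
  have h1 := psd_cs hW h u v hl
  have h2 := abs_nonneg (mu W p u v)
  linarith

theorem lap_nonpos (hn : 3 ≤ n) (hW : ContDiff ℝ ∞ W) (h : ∀ v, 0 ≤ mu W p v v) :
    lap W p ≤ 0 := by
  have h1 : 0 ≤ (2 * (n : ℝ) - 2) * -lap W p := by
    rw [← psd_tr]
    exact Finset.sum_nonneg fun i _ => h _
  have h2 : (3 : ℝ) ≤ n := by exact_mod_cast hn
  by_contra h4
  push Not at h4
  nlinarith

theorem mu_le (hn : 3 ≤ n) (hW : ContDiff ℝ ∞ W) (h : ∀ v, 0 ≤ mu W p v v) (v : E n) :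
    mu W p v v ≤ 2 * (n : ℝ) ^ 3 * -lap W p * ‖v‖ ^ 2 := by
  have h0 := lap_nonpos hn hW h
  have h2 : (3 : ℝ) ≤ n := by exact_mod_cast hn
  set T := (2 * (n : ℝ) - 2) * -lap W p with hT
  have h3 : ∀ i : Fin n, mu W p (EuclideanSpace.single i 1) (EuclideanSpace.single i 1) ≤ T :=
    fun i => by
      rw [hT, ← psd_tr]
      exact Finset.single_le_sum (f := fun i : Fin n =>
        mu W p (EuclideanSpace.single i 1) (EuclideanSpace.single i 1)) (fun i _ => h _)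
        (Finset.mem_univ i)
  have h4 : ∀ i j : Fin n, |mu W p (EuclideanSpace.single i 1) (EuclideanSpace.single j 1)| ≤ T :=
    fun i j => by
      have h5 := psd_cs hW h (EuclideanSpace.single i 1) (EuclideanSpace.single j 1) one_pos
      have h6 := h3 i
      have h7 := h3 j
      rw [one_mul, div_one] at h5
      linarith
  obtain ⟨B, hB, -⟩ := psd_bil hW p
  have h5 : v = ∑ i, v i • EuclideanSpace.single i (1 : ℝ) := by
    simpa using ((EuclideanSpace.basisFun (Fin n) ℝ).sum_repr v).symm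
  have h6 : mu W p v v = ∑ i, ∑ j, v i * v j *
      mu W p (EuclideanSpace.single j 1) (EuclideanSpace.single i 1) := by
    simp only [hB]
    conv_lhs => rw [h5]
    simp only [map_sum, map_smul, sum_apply, smul_apply,
      smul_eq_mul, Finset.mul_sum, mul_assoc]
  have h7 : ∀ i, |v i| ≤ ‖v‖ := fun i => by simpa using PiLp.norm_apply_le v i
  have h8 : mu W p v v ≤ ∑ _i : Fin n, ∑ _j : Fin n, ‖v‖ * ‖v‖ * T := by
    rw [h6]
    refine Finset.sum_le_sum fun i _ => Finset.sum_le_sum fun j _ => (le_abs_self _).trans ?_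
    rw [abs_mul, abs_mul]
    exact mul_le_mul (mul_le_mul (h7 i) (h7 j) (abs_nonneg _) (norm_nonneg _)) (h4 j i)
      (abs_nonneg _) (by positivity)
  simp only [Finset.sum_const, Finset.card_univ, Fintype.card_fin, nsmul_eq_mul] at h8
  refine h8.trans ?_
  rw [hT]
  have h9 : 0 ≤ (n : ℝ) ^ 2 * -lap W p * ‖v‖ ^ 2 :=
    mul_nonneg (mul_nonneg (by positivity) (by linarith)) (by positivity)
  nlinarith

theorem hess_le (hn : 3 ≤ n) (hW : ContDiff ℝ ∞ W) (h : ∀ v, 0 ≤ mu W p v v) (u v : E n) :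
    |D u (D v W) p| ≤ 3 * (n : ℝ) ^ 3 * -lap W p * (‖u‖ ^ 2 + ‖v‖ ^ 2) := by
  have h0 : 0 ≤ -lap W p := neg_nonneg.2 (lap_nonpos hn hW h)
  have h2 : (3 : ℝ) ≤ n := by exact_mod_cast hn
  have h3 := mu_cs hW h u v one_pos
  have h4 := mu_le hn hW h u
  have h5 := mu_le hn hW h v
  rw [one_mul, div_one] at h3
  have h6 : ((n : ℝ) - 2) * D u (D v W) p = -mu W p u v + -lap W p * ⟪u, v⟫ := by
    rw [mu]; ring
  have h7 : ((n : ℝ) - 2) * |D u (D v W) p| ≤ |mu W p u v| + -lap W p * |⟪u, v⟫| := by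
    rw [← abs_of_nonneg (show 0 ≤ (n : ℝ) - 2 by linarith), ← abs_mul, h6]
    refine (abs_add_le _ _).trans ?_
    rw [abs_neg, abs_mul, abs_of_nonneg h0]
  have h8 : |⟪u, v⟫| ≤ ‖u‖ ^ 2 + ‖v‖ ^ 2 := by
    have h9 := abs_real_inner_le_norm u v
    nlinarith [norm_nonneg u, norm_nonneg v, sq_nonneg (‖u‖ - ‖v‖)]
  have h9 := mul_le_mul_of_nonneg_left h8 h0
  have h10 : |D u (D v W) p| ≤ ((n : ℝ) - 2) * |D u (D v W) p| :=
    le_mul_of_one_le_left (abs_nonneg _) (by linarith)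
  have h11 : -lap W p * (‖u‖ ^ 2 + ‖v‖ ^ 2) ≤ (n : ℝ) ^ 3 * (-lap W p * (‖u‖ ^ 2 + ‖v‖ ^ 2)) :=
    le_mul_of_one_le_left (by positivity) (one_le_pow₀ (by linarith))
  linarith

end Vale.Agent.P242
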