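import Vale.Agent.P242.IdA
import Vale.Agent.P242.Psd

/-! P242 Est (TASK, owner helper5; helper names start with est_). Integral estimates: `abs_integral_le_integral_abs` / `norm_integral_le_of_norm_le` with a pointwise bound of the integrand, by cases on `‖p‖^2` (outside the support both sides are simple; on `‖p‖ ≤ 3` use `Pos`). `Prof.bdd` gives the constants.
`est_T`: `id_T`, `mu_cs`, `mu_le`; for `Prof 1 g` one has `|deriv g s| ≤ c * (-deriv φ s)` (`φ2`, `φ1`), and `-deriv φ s ≤ c * χ s` for `s ≥ 0` (`χ2`, `χ0`). -/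

namespace Vale.Agent.P242

open MeasureTheory Set Metric Filter Topology
open scoped ENNReal ContDiff RealInnerProductSpace

variable {n : ℕ}

theorem est_abs {F G : E n → ℝ} (hG : Integrable G) (h : ∀ p, |F p| ≤ G p) :
    |∫ p, F p| ≤ ∫ p, G p :=
  norm_integral_le_of_norm_le (f := F) hG (Eventually.of_forall h)

theorem est_far {p : E n} (hp : ¬ ‖p‖ ≤ 3) : 9 ≤ ‖p‖ ^ 2 := by
  have := not_le.1 hp
  nlinarith

theorem est_mono {a b : ℝ} {k : ℝ → ℝ} (hk : Prof a k) (hab : a ≤ b) : Prof b k :=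
  ⟨hk.1, fun s hs => hk.2 s (hab.trans hs)⟩

theorem est_th (K : Kit n) (W : E n → ℝ) : th K W = ∫ p : E n, -lap W p * K.χ (‖p‖ ^ 2) := by
  unfold th I
  rw [← integral_neg]
  simp only [neg_mul]

theorem est_th_int (K : Kit n) {W : E n → ℝ} (h : Pos W) :
    Integrable fun p : E n => -lap W p * K.χ (‖p‖ ^ 2) :=
  integrable_rad (f := fun p => -lap W p) K.hχ (smooth_lap h.1).continuous.neg

theorem est_th_pt (hn : 3 ≤ n) (K : Kit n) {W : E n → ℝ} (h : Pos W) (p : E n) :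
    0 ≤ -lap W p * K.χ (‖p‖ ^ 2) := by
  by_cases hp : ‖p‖ ≤ 3
  · exact mul_nonneg (neg_nonneg.2 (lap_nonpos hn h.1 (h.2 p hp))) (K.χ0 _)
  · rw [K.hχ.2 _ (est_far hp), mul_zero]

theorem est_de_int (K : Kit n) {W : E n → ℝ} (h : Pos W) :
    Integrable fun p : E n => mu W p p p * -deriv K.φ (‖p‖ ^ 2) := by
  have h1 := (integrable_rad K.hφ.deriv (smooth_mu h.1 0).1.continuous).neg
  refine h1.congr (Eventually.of_forall fun p => ?_)
  simp only [Pi.neg_apply, mul_neg]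

theorem est_de_pt {g : ℝ → ℝ} (hg : Prof 9 g) (g1 : ∀ s, deriv g s ≤ 0) {W : E n → ℝ} (h : Pos W)
    (p : E n) : 0 ≤ mu W p p p * -deriv g (‖p‖ ^ 2) := by
  by_cases hp : ‖p‖ ≤ 3
  · exact mul_nonneg (h.2 p hp p) (neg_nonneg.2 (g1 _))
  · rw [hg.deriv.2 _ (est_far hp), neg_zero, mul_zero]

theorem est_chi (K : Kit n) {k : ℝ → ℝ} (hk : Prof 4 k) :
    ∃ c, 1 ≤ c ∧ ∀ s, 0 ≤ s → |k s| ≤ c * K.χ s := by
  obtain ⟨c, c1, hc⟩ := hk.bdd
  refine ⟨c, c1, fun s hs => ?_⟩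
  by_cases h4 : s ≤ 4
  · have := K.χ2 s h4
    have := hc s hs
    nlinarith
  · rw [hk.2 s (not_le.1 h4).le, abs_zero]
    exact mul_nonneg (by linarith) (K.χ0 s)

theorem est_phi (K : Kit n) {k : ℝ → ℝ} (hk : Prof 1 k) :
    ∃ c, 1 ≤ c ∧ ∀ s, 0 ≤ s → |k s| ≤ c * -deriv K.φ s := by
  obtain ⟨c, c1, hc⟩ := hk.bdd
  refine ⟨c, c1, fun s hs => ?_⟩
  by_cases h4 : s ≤ 1
  · have := K.φ2 s h4
    have := hc s hs
    nlinarith
  · rw [hk.2 s (not_le.1 h4).le, abs_zero]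
    exact mul_nonneg (by linarith) (neg_nonneg.2 (K.φ1 s))

/-- Comparison with the density. -/
theorem est_cmp (hn : 3 ≤ n) (K : Kit n) {k : ℝ → ℝ} (hk : Prof 4 k) :
    ∃ c, 1 ≤ c ∧ ∀ W : E n → ℝ, Pos W → ∀ (F : E n → ℝ) (A : ℝ), 0 ≤ A →
      (∀ p, ‖p‖ ≤ 3 → |F p| ≤ A * -lap W p) → |I k F| ≤ c * A * th K W := by
  obtain ⟨c, c1, hc⟩ := est_chi K hk
  refine ⟨c, c1, fun W h F A hA hF => ?_⟩
  rw [est_th, ← integral_const_mul]
  refine est_abs ((est_th_int K h).const_mul _) fun p => ?_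
  by_cases hp : ‖p‖ ≤ 3
  · rw [abs_mul]
    have h1 := mul_le_mul (hF p hp) (hc (‖p‖ ^ 2) (sq_nonneg _)) (abs_nonneg _)
      ((abs_nonneg _).trans (hF p hp))
    exact h1.trans (le_of_eq (by ring))
  · rw [hk.2 _ (by linarith [est_far hp]), mul_zero, abs_zero]
    exact mul_nonneg (mul_nonneg (by linarith) hA) (est_th_pt hn K h p)

theorem est_cube (hn : 3 ≤ n) : (1 : ℝ) ≤ (n : ℝ) ^ 3 :=
  one_le_pow₀ (by exact_mod_cast (by omega : 1 ≤ n))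

theorem est_sign (hn : 3 ≤ n) (K : Kit n) {W : E n → ℝ} (h : Pos W) :
    0 ≤ de K.φ W ∧ 0 ≤ de K.χ W ∧ 0 ≤ th K W ∧ I K.φ (lap W) ≤ 0 := by
  refine ⟨integral_nonneg (est_de_pt (est_mono K.hφ (by norm_num)) K.φ1 h),
    integral_nonneg (est_de_pt K.hχ K.χ1 h), ?_, integral_nonpos fun p => ?_⟩
  · rw [est_th]
    exact integral_nonneg (est_th_pt hn K h)
  · show lap W p * K.φ (‖p‖ ^ 2) ≤ 0
    by_cases hp : ‖p‖ ≤ 3
    · exact mul_nonpos_of_nonpos_of_nonneg (lap_nonpos hn h.1 (h.2 p hp)) (K.φ0 _)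
    · rw [K.hφ.2 _ (by linarith [est_far hp]), mul_zero]

theorem est_L (hn : 3 ≤ n) (K : Kit n) {k : ℝ → ℝ} (hk : Prof 4 k) :
    ∃ C, 1 ≤ C ∧ ∀ W : E n → ℝ, Pos W → |I k (lap W)| ≤ C * th K W := by
  obtain ⟨c, c1, hc⟩ := est_cmp hn K hk
  refine ⟨c, c1, fun W h => ?_⟩
  have h1 := hc W h (lap W) 1 zero_le_one fun p hp => by
    rw [abs_of_nonpos (lap_nonpos hn h.1 (h.2 p hp)), one_mul]
  rwa [mul_one] at h1

theorem est_de (hn : 3 ≤ n) (K : Kit n) :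
    ∃ C, 1 ≤ C ∧ ∀ W : E n → ℝ, Pos W → de K.φ W ≤ C * th K W := by
  have hk : Prof 4 fun s => -deriv K.φ s :=
    ⟨K.hφ.deriv.1.neg, fun s hs => neg_eq_zero.2 (K.hφ.deriv.2 s hs)⟩
  obtain ⟨c, c1, hc⟩ := est_cmp hn K hk
  have h3 := est_cube hn
  refine ⟨c * (18 * (n : ℝ) ^ 3), by nlinarith, fun W h => ?_⟩
  refine (le_abs_self _).trans (hc W h (fun p => mu W p p p) _ (by positivity) fun p hp => ?_)
  rw [abs_of_nonneg (h.2 p hp p)]
  have h1 := mu_le hn h.1 (h.2 p hp) p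
  have h2 : 0 ≤ 2 * (n : ℝ) ^ 3 * -lap W p :=
    mul_nonneg (by positivity) (neg_nonneg.2 (lap_nonpos hn h.1 (h.2 p hp)))
  have h4 : ‖p‖ ^ 2 ≤ 9 := by nlinarith [norm_nonneg p]
  nlinarith [mul_le_mul_of_nonneg_left h4 h2]

theorem est_H (hn : 3 ≤ n) (K : Kit n) {k : ℝ → ℝ} (hk : Prof 1 k) :
    ∃ C, 1 ≤ C ∧ ∀ W : E n → ℝ, Pos W → ∀ u v,
      |I k (D u (D v W))| ≤ C * th K W * (‖u‖ ^ 2 + ‖v‖ ^ 2) := by
  obtain ⟨c, c1, hc⟩ := est_cmp hn K (est_mono hk (by norm_num : (1 : ℝ) ≤ 4))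
  have h3 := est_cube hn
  refine ⟨c * (3 * (n : ℝ) ^ 3), by nlinarith, fun W h u v => ?_⟩
  refine (hc W h (D u (D v W)) (3 * (n : ℝ) ^ 3 * (‖u‖ ^ 2 + ‖v‖ ^ 2)) (by positivity)
    fun p hp => ?_).trans (le_of_eq (by ring))
  exact (hess_le hn h.1 (h.2 p hp) u v).trans (le_of_eq (by ring))

theorem est_er (hn : 3 ≤ n) (K : Kit n) :
    ∃ C, 1 ≤ C ∧ ∀ W : E n → ℝ, Pos W → ∀ v, |er K.ψ W v| ≤ C * de K.φ W * ‖v‖ ^ 2 := by
  obtain ⟨c, c1, hc⟩ := est_phi K K.hψ.deriv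
  obtain ⟨d, d1, hd⟩ := est_phi K K.hψ.deriv.deriv
  refine ⟨2 * c + 36 * d, by linarith, fun W h v => ?_⟩
  have e : (2 * c + 36 * d) * de K.φ W * ‖v‖ ^ 2 =
      ∫ p : E n, (2 * c + 36 * d) * ‖v‖ ^ 2 * (mu W p p p * -deriv K.φ (‖p‖ ^ 2)) := by
    rw [integral_const_mul]
    unfold de I
    ring
  rw [e]
  refine est_abs ((est_de_int K h).const_mul _) fun p => ?_
  by_cases hp : ‖p‖ ≤ 3
  · have h0 := h.2 p hp p
    have h1 := hc _ (sq_nonneg ‖p‖)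
    have h2 := hd _ (sq_nonneg ‖p‖)
    have h3 : ⟪p, v⟫ ^ 2 ≤ 9 * ‖v‖ ^ 2 := by
      have h4 := abs_real_inner_le_norm p v
      have h5 : ‖p‖ * ‖v‖ ≤ 3 * ‖v‖ := mul_le_mul_of_nonneg_right hp (norm_nonneg v)
      have h6 := pow_le_pow_left₀ (abs_nonneg _) (h4.trans h5) 2
      rw [sq_abs] at h6
      linarith [mul_pow 3 ‖v‖ 2]
    have h7 : |2 * deriv K.ψ (‖p‖ ^ 2) * ‖v‖ ^ 2 + 4 * deriv (deriv K.ψ) (‖p‖ ^ 2) * ⟪p, v⟫ ^ 2| ≤
        (2 * c + 36 * d) * ‖v‖ ^ 2 * -deriv K.φ (‖p‖ ^ 2) := by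
      refine (abs_add_le _ _).trans ?_
      rw [abs_mul, abs_mul, abs_mul, abs_mul, abs_of_nonneg (sq_nonneg ‖v‖),
        abs_of_nonneg (sq_nonneg ⟪p, v⟫), abs_of_pos (by norm_num : (0 : ℝ) < 2),
        abs_of_pos (by norm_num : (0 : ℝ) < 4)]
      have h8 := mul_le_mul_of_nonneg_right h1 (sq_nonneg ‖v‖)
      have h9 := mul_le_mul h2 h3 (sq_nonneg _) ((abs_nonneg _).trans h2)
      nlinarith
    rw [abs_mul, abs_of_nonneg h0]
    exact (mul_le_mul_of_nonneg_left h7 h0).trans (le_of_eq (by ring))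
  · have h9 := est_far hp
    rw [K.hψ.deriv.2 _ (by linarith), K.hψ.deriv.deriv.2 _ (by linarith),
      K.hφ.deriv.2 _ (by linarith)]
    simp

theorem est_T (hn : 3 ≤ n) (K : Kit n) {g : ℝ → ℝ} (hg : Prof 1 g ∨ g = K.φ) :
    ∃ C, 1 ≤ C ∧ ∀ W : E n → ℝ, Pos W → ∀ (v : E n) (l : ℝ), 0 < l →
      |I g (D v (lap W))| ≤ C * (l * de K.φ W + th K W * ‖v‖ ^ 2 / l) := by
  have hg4 : Prof 4 g := by
    rcases hg with hg | hg
    · exact est_mono hg (by norm_num)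
    · rw [hg]
      exact K.hφ
  obtain ⟨c, c1, hc⟩ : ∃ c, 1 ≤ c ∧ ∀ s, 0 ≤ s → |deriv g s| ≤ c * -deriv K.φ s := by
    rcases hg with hg | hg
    · exact est_phi K hg.deriv
    · refine ⟨1, le_rfl, fun s _ => ?_⟩
      rw [hg, abs_of_nonpos (K.φ1 s), one_mul]
  obtain ⟨d, d1, hd⟩ := est_chi K hg4.deriv
  have h3 := est_cube hn
  have hn' : (3 : ℝ) ≤ n := by exact_mod_cast hn
  refine ⟨c + d * (2 * (n : ℝ) ^ 3), by nlinarith, fun W h v l hl => ?_⟩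
  have h1 : |I g (D v (lap W))| ≤ |I (deriv g) fun p => mu W p p v| := by
    rw [id_T hg4 h.1 v, abs_mul, abs_of_nonneg (by linarith : 0 ≤ ((n : ℝ) - 1) / 2)]
    nlinarith [abs_nonneg (I g (D v (lap W)))]
  have h2 : |I (deriv g) fun p => mu W p p v| ≤
      c * l * de K.φ W + d * (2 * (n : ℝ) ^ 3) * ‖v‖ ^ 2 / l * th K W := by
    have e : c * l * de K.φ W + d * (2 * (n : ℝ) ^ 3) * ‖v‖ ^ 2 / l * th K W =
        ∫ p : E n, (c * l * (mu W p p p * -deriv K.φ (‖p‖ ^ 2)) +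
          d * (2 * (n : ℝ) ^ 3) * ‖v‖ ^ 2 / l * (-lap W p * K.χ (‖p‖ ^ 2))) := by
      rw [integral_add ((est_de_int K h).const_mul _) ((est_th_int K h).const_mul _),
        integral_const_mul, integral_const_mul, est_th]
      rfl
    rw [e]
    refine est_abs (((est_de_int K h).const_mul _).add ((est_th_int K h).const_mul _)) fun p => ?_
    by_cases hp : ‖p‖ ≤ 3
    · have h4 := mu_cs h.1 (h.2 p hp) p v hl
      have h5 := mu_le hn h.1 (h.2 p hp) v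
      have h6 := mul_le_mul_of_nonneg_left (hc _ (sq_nonneg ‖p‖))
        (mul_nonneg hl.le (h.2 p hp p))
      have h7 := mul_le_mul (div_le_div_of_nonneg_right h5 hl.le) (hd _ (sq_nonneg ‖p‖))
        (abs_nonneg _) (div_nonneg ((h.2 p hp v).trans h5) hl.le)
      rw [abs_mul]
      refine (mul_le_mul_of_nonneg_right h4 (abs_nonneg _)).trans ?_
      rw [add_mul]
      exact (add_le_add h6 h7).trans (le_of_eq (by ring))
    · have h9 := est_far hp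
      rw [hg4.deriv.2 _ (by linarith), K.hφ.deriv.2 _ (by linarith), K.hχ.2 _ h9]
      simp
  obtain ⟨s1, -, s3, -⟩ := est_sign hn K h
  have s4 : 0 ≤ l * de K.φ W := mul_nonneg hl.le s1
  have s5 : 0 ≤ th K W * ‖v‖ ^ 2 / l := by positivity
  have s6 : 0 ≤ d * (2 * (n : ℝ) ^ 3) := by positivity
  have e2 : c * l * de K.φ W + d * (2 * (n : ℝ) ^ 3) * ‖v‖ ^ 2 / l * th K W =
      c * (l * de K.φ W) + d * (2 * (n : ℝ) ^ 3) * (th K W * ‖v‖ ^ 2 / l) := by ring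
  rw [e2] at h2
  nlinarith [mul_nonneg s6 s4, mul_nonneg (by linarith : 0 ≤ c) s5]

end Vale.Agent.P242
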