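import Vale.Agent.P242.Der
import Vale.Agent.P242.Est

/-! P242 Scale (TASK, owner helper5; helper names start with scl_). Bounds at all scales from the unit scale, at a fixed point `x` of the unit ball.
`top`: translation invariance `integral_add_left_eq_self`; the kernel vanishes unless `x + p ∈ ball 0 4`; `Prof.bdd`; `F` is continuous so integrable on the ball.
`sc_th`: `r ↦ M χ w (x, r)` is monotone on `[0,1]` by `der_M` with `(v, s) = (0, 1)` and `est_sign` (`monotoneOn_of_deriv_nonneg`), `M_eq`, `top` with `F = -lap w ≥ 0` (`lap_nonpos`).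
`sc_Y`: for a unit vector `u` put `c r = av k (D u w) (x, r)`, so `⟪u, Y⟫ = r * c r`; by `av_fderiv` (or `der_Y`) `r^2 * deriv c r = I g (D u (lap W))`, of size at most `C θ` (`est_T` with `l = 1`, `est_de`); compare `c r ± C θ / r` on `[r, 1]`; `c 1` is bounded by `I_D` and `top`.
`sc_a`: `r * deriv = I ψ (lap W)` by `der_a`, `est_L`, mean value inequality on `[R, 1]`. -/

namespace Vale.Agent.P242

open MeasureTheory Set Metric Filter Topology
open scoped ENNReal ContDiff RealInnerProductSpace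

variable {n : ℕ}

variable {w : E n → ℝ}

theorem scl_line {f : E n × ℝ → ℝ} (hf : ContDiff ℝ ∞ f) (x : E n) (r : ℝ) :
    HasDerivAt (fun s => f (x, s)) (fderiv ℝ f (x, r) (0, 1)) r :=
  (hf.differentiable (by simp) (x, r)).hasFDerivAt.comp_hasDerivAt r
    ((hasDerivAt_const r x).prodMk (hasDerivAt_id r))

theorem scl_zero (g : ℝ → ℝ) (f : E n → ℝ) : I g (D 0 f) = 0 := by
  simp only [I, D, map_zero, zero_mul, integral_zero]

theorem scl_prof {g : ℝ → ℝ} (h : Prof 1 g) : Prof 9 g := ⟨h.1, fun s hs => h.2 s (by linarith)⟩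

theorem scl_mono {f f' : ℝ → ℝ} {a b : ℝ} (hab : a ≤ b) (h : ∀ s ∈ Icc a b, HasDerivAt f (f' s) s)
    (h0 : ∀ s ∈ Ioo a b, 0 ≤ f' s) : f a ≤ f b := by
  refine monotoneOn_of_deriv_nonneg (convex_Icc a b)
    (fun s hs => (h s hs).continuousAt.continuousWithinAt)
    (fun s hs => (h s (interior_subset hs)).differentiableAt.differentiableWithinAt)
    (fun s hs => ?_) (left_mem_Icc.2 hab) (right_mem_Icc.2 hab) hab
  rw [(h s (interior_subset hs)).deriv]
  exact h0 s (interior_Icc (a := a) (b := b) ▸ hs)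

theorem scl_cmp {c c' : ℝ → ℝ} {r B : ℝ} (hr : r ∈ Ioc (0 : ℝ) 1) (h : ∀ s, HasDerivAt c (c' s) s)
    (hB : ∀ s ∈ Icc r 1, |s ^ 2 * c' s| ≤ B) : |c r| ≤ |c 1| + B / r := by
  have hB0 : 0 ≤ B := (abs_nonneg _).trans (hB 1 (right_mem_Icc.2 hr.2))
  have hd : ∀ s ∈ Icc r 1, HasDerivAt (fun s => B * s⁻¹) (B * -(s ^ 2)⁻¹) s := fun s hs =>
    (hasDerivAt_inv (hr.1.trans_le hs.1).ne').const_mul B
  have hb : ∀ s ∈ Ioo r 1, |c' s| ≤ B * (s ^ 2)⁻¹ := fun s hs => by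
    have h1 := hB s (Ioo_subset_Icc_self hs)
    have h2 : 0 < s ^ 2 := pow_pos (hr.1.trans hs.1) 2
    rw [abs_mul, abs_of_pos h2] at h1
    rw [← div_eq_mul_inv, le_div_iff₀ h2]
    linarith
  have h1 := scl_mono hr.2 (fun s hs => (h s).sub (hd s hs)) fun s hs => by
    have := (abs_le.1 (hb s hs)).1
    linarith
  have h2 := scl_mono hr.2 (fun s hs => ((h s).add (hd s hs)).neg) fun s hs => by
    have := (abs_le.1 (hb s hs)).2
    linarith
  simp only [Pi.sub_apply, Pi.add_apply, Pi.neg_apply, inv_one, mul_one] at h1 h2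
  have := le_abs_self (c 1)
  have := neg_abs_le (c 1)
  rw [div_eq_mul_inv, abs_le]
  constructor <;> linarith

theorem scl_mem {x p : E n} (hx : x ∈ ball (0 : E n) 1) (hp : ‖p‖ ≤ 3) :
    x + p ∈ ball (0 : E n) 4 := by
  rw [mem_ball_zero_iff] at hx ⊢
  linarith [norm_add_le x p]

theorem scl_D (hw : ContDiff ℝ ∞ w) (g : ℝ → ℝ) (x u : E n) (r : ℝ) :
    I g (D u (lap (sc w x r))) = r * I g (lap (sc (D u w) x r)) := by
  rw [← I_mul, lap_sc hw, lap_sc (smooth_D hw u), ← D_lap hw]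
  congr 1
  funext p
  have h1 := congrFun (D_sc (smooth_lap hw) x r u) p
  have h2 := fderiv_const_mul
    ((smooth_sc (smooth_lap hw) x r).differentiable (by simp) p) (r ^ 2)
  unfold D at h1 ⊢
  rw [h2, smul_apply, h1, smul_eq_mul]
  ring

theorem top {k : ℝ → ℝ} (hk : Prof 9 k) : ∃ C, 1 ≤ C ∧ ∀ (F H : E n → ℝ) (x : E n),
    Continuous F → Continuous H → x ∈ ball (0 : E n) 1 →
    (∀ p : E n, ‖p‖ ≤ 3 → |H p| ≤ F (x + p)) → (∀ z ∈ ball (0 : E n) 4, 0 ≤ F z) →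
      |I k H| ≤ C * ∫ z in ball (0 : E n) 4, F z := by
  obtain ⟨c, hc, hb⟩ := hk.bdd
  refine ⟨c, hc, fun F H x hF _ hx h1 h2 => ?_⟩
  have hi : Integrable ((ball (0 : E n) 4).indicator F) :=
    (integrable_indicator_iff measurableSet_ball).2
      ((hF.continuousOn.integrableOn_compact (isCompact_closedBall 0 4)).mono_set
        ball_subset_closedBall)
  rw [← integral_indicator measurableSet_ball, ← integral_add_left_eq_self _ x,
    ← integral_const_mul]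
  refine (Real.norm_eq_abs _).symm.trans_le (norm_integral_le_of_norm_le
    ((hi.comp_add_left x).const_mul c) (Eventually.of_forall fun p => ?_))
  rw [Real.norm_eq_abs, abs_mul]
  by_cases hp : ‖p‖ ≤ 3
  · rw [indicator_of_mem (scl_mem hx hp), mul_comm]
    exact mul_le_mul (hb _ (sq_nonneg _)) (h1 p hp) (abs_nonneg _) (by linarith)
  · rw [hk.2 _ (by nlinarith), abs_zero, mul_zero]
    exact mul_nonneg (by linarith) (indicator_nonneg h2 _)

theorem sc_th (hn : 3 ≤ n) (K : Kit n) : ∃ C, 1 ≤ C ∧ ∀ w : E n → ℝ, ContDiff ℝ ∞ w → Lin w →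
    ∀ x ∈ ball (0 : E n) 1, ∀ r ∈ Icc (0 : ℝ) 1,
      th K (sc w x r) ≤ C * ∫ z in ball (0 : E n) 4, -lap w z := by
  obtain ⟨C, hC, ht⟩ := top (n := n) K.hχ
  refine ⟨C, hC, fun w hw hL x hx r hr => ?_⟩
  have hl : ∀ z ∈ ball (0 : E n) 4, lap w z ≤ 0 := fun z hz => lap_nonpos hn hw (hL z hz)
  have h1 := scl_mono hr.2 (fun s _ => scl_line (M_smooth K.hχ hw) x s) fun s hs => by
    have h0 : 0 < s := hr.1.trans_lt hs.1
    have h2 := (est_sign hn K (pos_sc hw hL hx ⟨h0.le, hs.2.le⟩)).2.1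
    have h3 : (3 : ℝ) ≤ n := by exact_mod_cast hn
    refine nonneg_of_mul_nonneg_right ?_ h0
    rw [der_M hn K.hχ hw, scl_zero, neg_zero, zero_add, one_mul]
    exact mul_nonneg (div_nonneg two_pos.le (by linarith)) h2
  rw [M_eq _ hw, M_eq _ hw] at h1
  refine (h1.trans (neg_le_abs _)).trans (ht (fun z => -lap w z) _ x
    (smooth_lap hw).continuous.neg (smooth_lap (smooth_sc hw x 1)).continuous hx (fun p hp => ?_)
    fun z hz => neg_nonneg.2 (hl z hz))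
  rw [lap_sc hw]
  simp only [sc, one_pow, one_mul, one_smul]
  exact (abs_of_nonpos (hl _ (scl_mem hx hp))).le

theorem sc_Y (hn : 3 ≤ n) (K : Kit n) {g k : ℝ → ℝ} (h : Prof 1 g)
    (hk : ∀ s, k s = -2 * deriv g s) : ∃ C, 1 ≤ C ∧ ∀ (w : E n → ℝ) (θ : ℝ), ContDiff ℝ ∞ w →
    Lin w → ∀ x ∈ ball (0 : E n) 1, (∀ r ∈ Icc (0 : ℝ) 1, th K (sc w x r) ≤ θ) →
      ∀ r ∈ Icc (0 : ℝ) 1, ‖Y k w (x, r)‖ ≤ C * (θ + r * ∫ z in ball (0 : E n) 4, |w z|) := by
  obtain rfl : k = eta g := funext hk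
  obtain ⟨C1, hC1, h1⟩ := est_T hn K (Or.inl h)
  obtain ⟨C2, hC2, h2⟩ := est_de hn K
  obtain ⟨C3, hC3, h3⟩ := top (n := n) (scl_prof h.eta.deriv)
  have hC : 0 ≤ C1 * (C2 + 1) := by positivity
  refine ⟨C1 * (C2 + 1) + 6 * C3, by linarith, fun w θ hw hL x hx hθ r hr => ?_⟩
  have hθ0 : 0 ≤ θ := (est_sign hn K (pos_sc hw hL hx hr)).2.2.1.trans (hθ r hr)
  have hΛ : 0 ≤ ∫ z in ball (0 : E n) 4, |w z| := integral_nonneg fun _ => abs_nonneg _
  obtain ⟨u, hu, e⟩ : ∃ u : E n, ‖u‖ ≤ 1 ∧ ‖Y (eta g) w (x, r)‖ = ⟪u, Y (eta g) w (x, r)⟫ := by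
    refine ⟨‖Y (eta g) w (x, r)‖⁻¹ • Y (eta g) w (x, r), ?_, ?_⟩
    · rw [norm_smul, norm_inv, norm_norm]
      exact inv_mul_le_one_of_le₀ le_rfl (norm_nonneg _)
    · rw [real_inner_smul_left, real_inner_self_eq_norm_mul_norm, ← mul_assoc,
        inv_mul_mul_self]
  rw [e, (Y_inner h.eta hw x u r).1]
  rcases hr.1.eq_or_lt with rfl | h0
  · rw [zero_mul, zero_mul]
    positivity
  have a1 := scl_cmp (B := C1 * (C2 + 1) * θ) ⟨h0, hr.2⟩
    (scl_line (av_smooth h.eta (smooth_D hw u)) x) fun s hs => by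
      have hs' : s ∈ Icc (0 : ℝ) 1 := ⟨hr.1.trans hs.1, hs.2⟩
      have hP := pos_sc hw hL hx hs'
      rw [sq, mul_assoc, der_a h (smooth_D hw u), scl_zero, zero_add, one_mul, ← scl_D hw]
      refine (h1 _ hP u 1 one_pos).trans ?_
      rw [mul_assoc, one_mul, div_one]
      have b1 := (h2 _ hP).trans (mul_le_mul_of_nonneg_left (hθ s hs') (by linarith))
      have b2 : th K (sc w x s) * ‖u‖ ^ 2 ≤ θ * 1 := mul_le_mul (hθ s hs')
        (pow_le_one₀ (norm_nonneg _) hu) (sq_nonneg _) hθ0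
      exact mul_le_mul_of_nonneg_left (by linarith) (by linarith)
  have a2 := h3 (fun z => 3 * |w z|) (fun p => sc w x 1 p * ⟪p, u⟫) x
    (continuous_const.mul hw.continuous.abs)
    ((smooth_sc hw x 1).continuous.mul (continuous_id.inner continuous_const)) hx
    (fun p hp => by
      have := abs_real_inner_le_norm p u
      have : ‖p‖ * ‖u‖ ≤ 3 * 1 := mul_le_mul hp hu (norm_nonneg _) (by norm_num)
      rw [abs_mul, sc, one_smul, mul_comm]
      exact mul_le_mul_of_nonneg_right (by linarith) (abs_nonneg _)) fun z _ => by positivity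
  have a3 := (Y_inner h.eta hw x u 1).1.symm.trans (Y_inner h.eta hw x u 1).2
  rw [one_mul, I_D h.eta (smooth_sc hw x 1)] at a3
  rw [a3, abs_mul, abs_neg, abs_two] at a1
  rw [integral_const_mul] at a2
  have a4 := mul_le_mul_of_nonneg_left ((le_abs_self _).trans a1) hr.1
  rw [mul_add, mul_div_cancel₀ _ h0.ne'] at a4
  have a5 := mul_le_mul_of_nonneg_left a2 hr.1
  have a6 := mul_nonneg hC (mul_nonneg hr.1 hΛ)
  have a7 : 0 ≤ C3 * θ := by positivity
  linarith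

theorem sc_a (hn : 3 ≤ n) (K : Kit n) : ∃ C, 1 ≤ C ∧ ∀ (w : E n → ℝ) (θ : ℝ), ContDiff ℝ ∞ w →
    Lin w → ∀ x ∈ ball (0 : E n) 1, (∀ r ∈ Icc (0 : ℝ) 1, th K (sc w x r) ≤ θ) →
      ∀ R ∈ Ioc (0 : ℝ) 1,
        |av (eta K.ψ) w (x, R)| ≤ C * (θ / R + ∫ z in ball (0 : E n) 4, |w z|) := by
  obtain ⟨C1, hC1, h1⟩ := est_L hn K (k := K.ψ) ⟨K.hψ.1, fun s hs => K.hψ.2 s (by linarith)⟩
  obtain ⟨C3, hC3, h3⟩ := top (n := n) (scl_prof K.hψ.eta)
  refine ⟨C1 + C3, by linarith, fun w θ hw hL x hx hθ R hR => ?_⟩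
  have hR' := Ioc_subset_Icc_self hR
  have hθ0 : 0 ≤ θ := (est_sign hn K (pos_sc hw hL hx hR')).2.2.1.trans (hθ R hR')
  have hΛ : 0 ≤ ∫ z in ball (0 : E n) 4, |w z| := integral_nonneg fun _ => abs_nonneg _
  have a1 := scl_cmp (B := C1 * θ) hR (scl_line (av_smooth K.hψ.eta hw) x) fun s hs => by
    have hs' : s ∈ Icc (0 : ℝ) 1 := ⟨hR.1.le.trans hs.1, hs.2⟩
    rw [sq, mul_assoc, der_a K.hψ hw, scl_zero, zero_add, one_mul, abs_mul, abs_of_nonneg hs'.1]
    exact (mul_le_of_le_one_left (abs_nonneg _) hs.2).trans ((h1 _ (pos_sc hw hL hx hs')).trans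
      (mul_le_mul_of_nonneg_left (hθ s hs') (by linarith)))
  have a2 : |av (eta K.ψ) w (x, 1)| ≤ _ := h3 (fun z => |w z|) (sc w x 1) x hw.continuous.abs
    (smooth_sc hw x 1).continuous hx (fun p _ => by rw [sc, one_smul]) fun z _ => abs_nonneg _
  have a3 : 0 ≤ C3 * (θ / R) := mul_nonneg (by linarith) (div_nonneg hθ0 hR.1.le)
  have a4 : 0 ≤ C1 * ∫ z in ball (0 : E n) 4, |w z| := by positivity
  rw [mul_div_assoc] at a1
  linarith

end Vale.Agent.P242
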