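import Vale.Agent.P242.Key
import Vale.Agent.P242.Scale
import Vale.Agent.P242.KitE

/-! P242 Core (owner helper5; helper names start with cor_). Assembly of the gauge data: `Z = Y kap`, `a = av eta w`, `L = Ly`. -/

namespace Vale.Agent.P242

open MeasureTheory Set Metric Filter Topology
open scoped ENNReal ContDiff RealInnerProductSpace

variable {n : ℕ}

theorem cor_real {c S θ r R m Λ : ℝ} (hc : 0 ≤ c) (hS : c ≤ S) (hS0 : 0 < S)
    (hθ : θ ≤ 1 / (20 * S)) (hr0 : 0 ≤ r) (hr : r ≤ R) (hR : R ≤ 1 / (20 * S * (|Λ| + 1)))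
    (hm : m ≤ Λ) : c * (θ + r * m) ≤ 1 / 10 := by
  have h0 := abs_nonneg Λ
  have h1 : r * m ≤ r * (|Λ| + 1) :=
    mul_le_mul_of_nonneg_left (by linarith [le_abs_self Λ]) hr0
  have h2 : r * (|Λ| + 1) ≤ 1 / (20 * S) := by
    calc r * (|Λ| + 1) ≤ 1 / (20 * S * (|Λ| + 1)) * (|Λ| + 1) :=
          mul_le_mul_of_nonneg_right (hr.trans hR) (by positivity)
      _ = 1 / (20 * S) := by field_simp
  calc c * (θ + r * m) ≤ c * (1 / (20 * S) + 1 / (20 * S)) :=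
        mul_le_mul_of_nonneg_left (by linarith) hc
    _ ≤ S * (1 / (20 * S) + 1 / (20 * S)) := mul_le_mul_of_nonneg_right hS (by positivity)
    _ = 1 / 10 := by field_simp; norm_num

theorem cor_a0 (K : Kit n) (w : E n → ℝ) (x : E n) : av (eta K.ψ) w (x, 0) = w x := by
  have h := I_mul (eta K.ψ) (w x) (fun _ : E n => 1)
  rw [K.one] at h
  have e : sc w x 0 = fun _ : E n => w x * 1 := by
    funext p
    simp [sc]
  rw [av, e, h, mul_one]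

theorem core (hn : 3 ≤ n) : ∃ ε : ℝ, 0 < ε ∧ ∀ Λ : ℝ, ∃ R C : ℝ, ∀ w : E n → ℝ,
    ContDiff ℝ ∞ w → Lin w → ∫ x in ball (0 : E n) 4, -lap w x ≤ ε →
    ∫ x in ball (0 : E n) 4, |w x| ≤ Λ → ∃ Z a L, Gauge w R C Z a L := by
  obtain ⟨K⟩ := exists_kit n
  obtain ⟨θ0, C0, hθ0, hC0, hkey⟩ := key hn K
  obtain ⟨C1, hC1, h1⟩ := sc_th hn K
  obtain ⟨C2, hC2, h2⟩ := sc_Y (k := eta K.ψ) hn K K.hψ (fun _ => rfl)
  obtain ⟨C3, hC3, h3⟩ := sc_Y hn K K.hg K.dg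
  obtain ⟨C4, hC4, h4⟩ := sc_a hn K
  obtain ⟨C5, hC5, h5⟩ := est_L hn K K.hφ
  obtain ⟨S, hS⟩ : ∃ S, S = C2 + C3 + C5 := ⟨_, rfl⟩
  have hS0 : 0 < S := by linarith
  obtain ⟨θ, hθ⟩ : ∃ θ, θ = min θ0 (1 / (20 * S)) := ⟨_, rfl⟩
  have hθp : 0 < θ := hθ ▸ lt_min hθ0 (by positivity)
  have hθ1 : θ ≤ θ0 := hθ ▸ min_le_left _ _
  have hθ2 : θ ≤ 1 / (20 * S) := hθ ▸ min_le_right _ _
  refine ⟨θ / C1, by positivity, fun Λ => ?_⟩
  obtain ⟨R, hR⟩ : ∃ R, R = min 1 (1 / (20 * S * (|Λ| + 1))) := ⟨_, rfl⟩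
  have hΛ := abs_nonneg Λ
  have hRp : 0 < R := hR ▸ lt_min one_pos (by positivity)
  have hR1 : R ≤ 1 := hR ▸ min_le_left _ _
  have hR2 : R ≤ 1 / (20 * S * (|Λ| + 1)) := hR ▸ min_le_right _ _
  refine ⟨R, C0 + C4 * (θ / R + |Λ|), fun w hw hl hm hΛ' =>
    ⟨Y (kap n K.ψ) w, av (eta K.ψ) w, Ly K w, ?_⟩⟩
  have hth : ∀ x ∈ ball (0 : E n) 1, ∀ r ∈ Icc (0 : ℝ) 1, th K (sc w x r) ≤ θ := by
    intro x hx r hr
    refine (h1 w hw hl x hx r hr).trans ?_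
    calc C1 * ∫ z in ball (0 : E n) 4, -lap w z ≤ C1 * (θ / C1) :=
          mul_le_mul_of_nonneg_left hm (by linarith)
      _ = θ := by field_simp
  have hI : ∀ r ∈ Icc 0 R, r ∈ Icc (0 : ℝ) 1 := fun r hr => ⟨hr.1, hr.2.trans hR1⟩
  have hy : ∀ x ∈ ball (0 : E n) 1, ∀ r ∈ Icc 0 R, ‖Y (eta K.ψ) w (x, r)‖ ≤ 1 / 10 :=
    fun x hx r hr => (h2 w θ hw hl x hx (hth x hx) r (hI r hr)).trans
      (cor_real (by linarith) (by linarith) hS0 hθ2 hr.1 hr.2 hR2 hΛ')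
  have hz : ∀ x ∈ ball (0 : E n) 1, ∀ r ∈ Icc 0 R, ‖Y (kap n K.ψ) w (x, r)‖ ≤ 1 / 10 :=
    fun x hx r hr => (h3 w θ hw hl x hx (hth x hx) r (hI r hr)).trans
      (cor_real (by linarith) (by linarith) hS0 hθ2 hr.1 hr.2 hR2 hΛ')
  have hYs := Y_smooth (K.hψ.kap (n := n)) hw
  have hLs : ContDiff ℝ ∞ (Ly K w) :=
    ((M_smooth K.hφ hw).add ((Y_smooth K.hψ.eta hw).norm_sq ℝ)).add (hYs.norm_sq ℝ)
  have hp : 0 ≤ C4 * (θ / R + |Λ|) := by positivity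
  refine ⟨hRp, hR1, by positivity, hYs.of_le (WithTop.coe_le_coe.2 (le_top : (2 : ℕ∞) ≤ ⊤)),
    (av_smooth K.hψ.eta hw).of_le (by exact_mod_cast le_top),
    hLs.of_le (by exact_mod_cast le_top), cor_a0 K w, fun x hx => ?_, hz, fun x hx r hr => ?_,
    fun x hx r hr v => ?_⟩
  · refine (h4 w θ hw hl x hx (hth x hx) R ⟨hRp, hR1⟩).trans ?_
    have := mul_le_mul_of_nonneg_left (add_le_add_right (hΛ'.trans (le_abs_self Λ)) (θ / R))
      (show 0 ≤ C4 by linarith)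
    linarith
  · have hP := pos_sc hw hl hx (hI r hr)
    obtain ⟨-, -, -, hs⟩ := est_sign hn K hP
    have a1 := hy x hx r hr
    have a2 := hz x hx r hr
    have a3 := (abs_le.1 (h5 _ hP)).1
    have a4 : C5 * (θ + 0 * Λ) ≤ 1 / 10 :=
      cor_real (by linarith) (by linarith) hS0 hθ2 le_rfl hRp.le hR2 le_rfl
    have a5 := mul_le_mul_of_nonneg_left (hth x hx r (hI r hr)) (show 0 ≤ C5 by linarith)
    have a6 := pow_le_pow_left₀ (norm_nonneg _) a1 2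
    have a7 := pow_le_pow_left₀ (norm_nonneg _) a2 2
    rw [Ly, M_eq _ hw]
    constructor
    · have := sq_nonneg ‖Y (eta K.ψ) w (x, r)‖
      have := sq_nonneg ‖Y (kap n K.ψ) w (x, r)‖
      linarith
    · linarith
  · have hr' : r ∈ Icc (0 : ℝ) 1 := hI r ⟨hr.1.le, hr.2.le⟩
    have hP := pos_sc hw hl hx hr'
    have k := hkey w hw x r hr.1 hP ((hth x hx r hr').trans hθ1)
    have k0 := (abs_nonneg _).trans (k v)
    refine (k v).trans ?_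
    rw [mul_assoc] at k0 ⊢
    rw [mul_assoc]
    exact mul_le_mul_of_nonneg_right (by linarith) (nonneg_of_mul_nonneg_right k0 hC0)

end Vale.Agent.P242
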