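import Vale.Agent.P242.Ibp

/-! P242 IdA (TASK, owner helper5; helper names start with ida_). Two integral identities.
`id_T`: `mu W p p v = -(n-2) eu (D v W) p - lap W p * ⟪p, v⟫`; `I_lap` for `D v W` with `D_lap`, and `I_D` for `lap W`.
`id_de`: `D p (D p W) p = eu (eu W) p - eu W p` (`eu_eu`); `I_eu` for `eu W` with the profile `deriv φ`, then `I_lap` with the profile `s * deriv φ s + (n-1)/2 * φ s`, whose derivative is `s φ2 + (n+1)/2 φ1`. Split integrals with `integrable_rad`, `integral_add`, `integral_const_mul`. -/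

namespace Vale.Agent.P242

open MeasureTheory Set Metric Filter Topology
open scoped ENNReal ContDiff RealInnerProductSpace

variable {n : ℕ}

variable {W : E n → ℝ} {g : ℝ → ℝ} {b : ℝ}

theorem ida_s (h : Prof b g) : Prof b fun s => s * g s :=
  ⟨contDiff_id.mul h.1, fun s hs => mul_eq_zero_of_right _ (h.2 s hs)⟩

theorem ida_two {g₁ g₂ k : ℝ → ℝ} {f₁ f₂ f : E n → ℝ} (h₁ : Prof b g₁) (h₂ : Prof b g₂)
    (c₁ : Continuous f₁) (c₂ : Continuous f₂) (α β : ℝ)
    (e : ∀ p, f p * k (‖p‖ ^ 2) = α * (f₁ p * g₁ (‖p‖ ^ 2)) + β * (f₂ p * g₂ (‖p‖ ^ 2))) :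
    I k f = α * I g₁ f₁ + β * I g₂ f₂ := by
  unfold I
  rw [← integral_const_mul, ← integral_const_mul, ← integral_add
    ((integrable_rad h₁ c₁).const_mul α) ((integrable_rad h₂ c₂).const_mul β)]
  exact integral_congr_ae (ae_of_all _ e)

theorem id_T (h : Prof b g) (hW : ContDiff ℝ ∞ W) (v : E n) :
    I (deriv g) (fun p => mu W p p v) = ((n : ℝ) - 1) / 2 * I g (D v (lap W)) := by
  have h1 := I_lap h (smooth_D hW v)
  have h2 := I_D h (smooth_lap hW) v
  rw [← D_lap hW] at h1
  rw [ida_two (f₁ := eu (D v W)) (f₂ := fun p => lap W p * ⟪p, v⟫) h.deriv h.deriv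
    (smooth_eu (smooth_D hW v)).continuous
    ((smooth_lap hW).continuous.mul (continuous_id.inner continuous_const)) (-((n : ℝ) - 2)) (-1)
    fun p => by
      rw [mu, eu_D hW]
      ring]
  linear_combination (-((n : ℝ) - 2) / 2) * h1 + (-(1 : ℝ) / 2) * h2

theorem id_de (h : Prof b g) (hW : ContDiff ℝ ∞ W) :
    de g W = ((n : ℝ) - 1) / 2 * I (fun s => 2 * s * deriv g s + ((n : ℝ) - 2) * g s) (lap W) := by
  have c1 := (smooth_eu hW).continuous
  have c2 := (smooth_eu (smooth_eu hW)).continuous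
  have c3 := (smooth_lap hW).continuous
  have h1 := I_lap h hW
  have h2 := I_lap (ida_s h.deriv) hW
  have h3 := I_eu h.deriv (smooth_eu hW)
  rw [ida_two h.deriv (ida_s h.deriv.deriv) c1 c1 1 1 (k := deriv fun s => s * deriv g s)
    fun p => by
      rw [((hasDerivAt_id' _).fun_mul
        (h.deriv.1.differentiable (by simp) (‖p‖ ^ 2)).hasDerivAt).deriv]
      ring] at h2
  rw [ida_two (ida_s h.deriv.deriv) h.deriv c1 c1 2 n
    (k := fun s => 2 * s * deriv (deriv g) s + n * deriv g s) fun p => by ring] at h3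
  have h4 := ida_two h.deriv h.deriv c2 c1 1 (-1) (k := deriv g)
    (f := fun p => eu (eu W) p - eu W p) fun p => by ring
  rw [ida_two (ida_s h.deriv) h c3 c3 2 ((n : ℝ) - 2) fun p => by ring, de,
    ida_two (f₁ := fun p => eu (eu W) p - eu W p) h.deriv (ida_s h.deriv) (c2.sub c1) c3
      ((n : ℝ) - 2) 1 fun p => by
        rw [mu, eu_eu hW, real_inner_self_eq_norm_sq]
        ring, h4, h3]
  linear_combination (-((n : ℝ) - 1) * (n - 2) / 2) * h1 + (-((n : ℝ) - 2)) * h2

end Vale.Agent.P242
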