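import Vale.Agent.P242.Av
import Vale.Agent.P242.IdA

/-! P242 Der (TASK, owner helper5; helper names start with der_). Derivatives of the three quantities, with `W = sc w x r`. `av_fderiv`, `D_sc`, `lap_sc`, and `r * fderiv f (x + r p) p = eu (sc f x r) p`.
`der_a`: `I_lap`. `der_Y`: `⟪u, Y k w q⟫ = q.2 * av k (D u w) q` for all `q` (`D_eq_sum`), differentiate this scalar identity; `I_lap` for `D u W` and `D_lap`. `der_M`: `I_eu` for `lap W` and `id_de`. -/

namespace Vale.Agent.P242

open MeasureTheory Set Metric Filter Topology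
open scoped ENNReal ContDiff RealInnerProductSpace

variable {n : ℕ}

variable {w : E n → ℝ} {g k : ℝ → ℝ} {b : ℝ}

theorem I_mul (g : ℝ → ℝ) (c : ℝ) (f : E n → ℝ) : I g (fun p => c * f p) = c * I g f := by
  simp only [I, mul_assoc, integral_const_mul]

theorem der_ker (h : Prof b g) (hk : ∀ s, k s = -2 * deriv g s) (hw : ContDiff ℝ ∞ w) :
    I k (eu w) = I g (lap w) := by
  rw [I_lap h hw, I, I, ← integral_const_mul]
  simp only [hk, mul_left_comm]

theorem der_av (h : Prof b g) (hw : ContDiff ℝ ∞ w) (x v : E n) (r s c : ℝ) {G : E n → ℝ}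
    (hG : G = fun p => c * sc w x r p) :
    c * (r * fderiv ℝ (av g w) (x, r) (v, s)) = I g (D v G) + s * I g (eu G) := by
  have h1 : ∀ u p, D u G p = c * (r * sc (D u w) x r p) := fun u p => by
    rw [hG, D, fderiv_const_mul ((smooth_sc hw x r).differentiable (by simp) p), smul_apply,
      smul_eq_mul, ← congrFun (D_sc hw x r u) p, D]
  have h2 : D v G = fun p => c * (r * sc (D v w) x r p) := funext (h1 v)
  have h3 : eu G = fun p => c * (r * fderiv ℝ w (x + r • p) p) := funext fun p => h1 p p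
  rw [av_fderiv h hw, h2, h3, I_mul, I_mul, I_mul, I_mul, av]
  ring

theorem Y_smooth (h : Prof b k) (hw : ContDiff ℝ ∞ w) : ContDiff ℝ ∞ (Y k w) := by
  exact contDiff_snd.smul (ContDiff.sum fun i _ =>
    (av_smooth h (smooth_D hw (EuclideanSpace.single i 1))).smul contDiff_const)

theorem M_smooth (h : Prof b g) (hw : ContDiff ℝ ∞ w) : ContDiff ℝ ∞ (M g w) := by
  exact ((contDiff_snd.pow 2).mul (av_smooth h (smooth_lap hw))).neg

theorem Y_inner (h : Prof b k) (hw : ContDiff ℝ ∞ w) (x u : E n) (r : ℝ) :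
    ⟪u, Y k w (x, r)⟫ = r * av k (D u w) (x, r) ∧ ⟪u, Y k w (x, r)⟫ = I k (D u (sc w x r)) := by
  have h1 : ⟪u, Y k w (x, r)⟫ = r * av k (D u w) (x, r) := by
    have h2 : av k (D u w) (x, r) = ∑ i, u i * av k (pd i w) (x, r) := by
      simp only [av, I, sc, D_eq_sum w u, Finset.sum_mul, mul_assoc]
      refine (integral_finsetSum _ fun i _ => (integrable_rad h (smooth_sc
        (smooth_D hw (EuclideanSpace.single i 1)) x r).continuous).const_mul (u i)).trans ?_
      simp only [integral_const_mul]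
      rfl
    rw [h2, Y, real_inner_smul_right, inner_sum]
    simp only [real_inner_smul_right, EuclideanSpace.inner_single_right, conj_trivial, one_mul,
      mul_comm (u _)]
  exact ⟨h1, by rw [h1, D_sc hw, I_mul, av]⟩

theorem M_eq (g : ℝ → ℝ) (hw : ContDiff ℝ ∞ w) (x : E n) (r : ℝ) :
    M g w (x, r) = -I g (lap (sc w x r)) := by
  rw [lap_sc hw, I_mul, M, av]

theorem der_a (h : Prof b g) (hw : ContDiff ℝ ∞ w) (x v : E n) (r s : ℝ) :
    r * fderiv ℝ (av (eta g) w) (x, r) (v, s) =
      I (eta g) (D v (sc w x r)) + s * I g (lap (sc w x r)) := by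
  have h1 := der_av h.eta hw x v r s 1 (G := sc w x r) (by simp only [one_mul])
  rwa [one_mul, der_ker h (k := eta g) (fun _ => rfl) (smooth_sc hw x r)] at h1

theorem der_Y (h : Prof b g) (hk : ∀ s, k s = -2 * deriv g s) (hw : ContDiff ℝ ∞ w)
    (x u v : E n) (r s : ℝ) : r * ⟪u, fderiv ℝ (Y k w) (x, r) (v, s)⟫ =
      I k (D v (D u (sc w x r))) +
        s * (I k (D u (sc w x r)) + I g (D u (lap (sc w x r)))) := by
  have hk' : Prof b k := (funext hk : k = eta g) ▸ h.eta
  have hu := smooth_D hw u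
  have hW := smooth_sc hw x r
  have e : (fun q => innerSL ℝ u (Y k w q)) = fun q : E n × ℝ => q.2 * av k (D u w) q :=
    funext fun q => (Y_inner hk' hw q.1 u q.2).1
  have d1 : HasFDerivAt (fun q => innerSL ℝ u (Y k w q))
      ((innerSL ℝ u).comp (fderiv ℝ (Y k w) (x, r))) (x, r) :=
    (innerSL ℝ u).hasFDerivAt.comp (x, r)
      ((Y_smooth hk' hw).differentiable (by simp) (x, r)).hasFDerivAt
  have d2 := (hasFDerivAt_snd (𝕜 := ℝ) (p := (x, r))).fun_mul
    ((av_smooth hk' hu).differentiable (by simp) (x, r)).hasFDerivAt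
  rw [e] at d1
  have h1 := congrArg (fun T => T (v, s)) (d1.unique d2)
  simp only [ContinuousLinearMap.comp_apply, innerSL_apply_apply, add_apply, smul_apply,
    smul_eq_mul, ContinuousLinearMap.coe_snd'] at h1
  have h2 := der_av hk' hu x v r s r (D_sc hw x r u)
  rw [der_ker h hk (smooth_D hW u), ← D_lap hW] at h2
  have h3 := (Y_inner hk' hw x u r).1.symm.trans (Y_inner hk' hw x u r).2
  rw [h1, ← h3]
  linear_combination h2

theorem der_M (hn : 3 ≤ n) (h : Prof b g) (hw : ContDiff ℝ ∞ w) (x v : E n) (r s : ℝ) :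
    r * fderiv ℝ (M g w) (x, r) (v, s) =
      -I g (D v (lap (sc w x r))) + s * (2 / ((n : ℝ) - 1) * de g (sc w x r)) := by
  have hW := smooth_sc hw x r
  have hl := smooth_lap hw
  have d2 : HasFDerivAt (M g w) _ (x, r) :=
    (((hasFDerivAt_snd (𝕜 := ℝ) (p := (x, r))).pow 2).fun_mul
      ((av_smooth h hl).differentiable (by simp) (x, r)).hasFDerivAt).fun_neg
  have h2 := der_av h hl x v r s (r ^ 2) (lap_sc hw x r)
  have h3 : r ^ 2 * av g (lap w) (x, r) = I g (lap (sc w x r)) := by rw [lap_sc hw, I_mul, av]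
  have p1 : Prof b fun s => 2 * s * deriv g s + n * g s :=
    ⟨((contDiff_const.mul contDiff_id).mul h.deriv.1).add (contDiff_const.mul h.1),
      fun s hs => by simp only [h.2 s hs, h.deriv.2 s hs, mul_zero, add_zero]⟩
  have h4 : I (fun s => 2 * s * deriv g s + ((n : ℝ) - 2) * g s) (lap (sc w x r)) =
      I (fun s => 2 * s * deriv g s + n * g s) (lap (sc w x r)) - 2 * I g (lap (sc w x r)) := by
    have c := (smooth_lap hW).continuous
    rw [I, I, I, ← integral_const_mul,
      ← integral_sub (integrable_rad p1 c) ((integrable_rad h c).const_mul 2)]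
    exact integral_congr_ae (Eventually.of_forall fun p => by ring)
  have h5 : (n : ℝ) - 1 ≠ 0 := by
    have : (3 : ℝ) ≤ n := by exact_mod_cast hn
    linarith
  have h6 : 2 / ((n : ℝ) - 1) * de g (sc w x r) =
      I (fun s => 2 * s * deriv g s + ((n : ℝ) - 2) * g s) (lap (sc w x r)) := by
    rw [id_de h hW]
    field_simp
  rw [I_eu h (smooth_lap hW)] at h2
  rw [d2.fderiv, h6, h4, ← h3]
  simp only [neg_apply, add_apply, smul_apply, smul_eq_mul, ContinuousLinearMap.coe_snd',
    nsmul_eq_mul, Nat.cast_ofNat, Nat.add_one_sub_one, pow_one]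
  linear_combination -h2

end Vale.Agent.P242
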