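import Vale.Agent.P242.FlowB

/-! P242 Flow (TASK, owner helper5; helper names start with flo_). The maps. Choose trajectories `T x` with `T x 0 = x` and `S a` with `S a R = a` (`exists_traj`, `choose!`), `Φ x = T x R`, `G a = S a 0`. `inv`: uniqueness from `close`. `up`, `lo`: `two` with `η / B`. -/

namespace Vale.Agent.P242

open MeasureTheory Set Metric Filter Topology
open scoped ENNReal ContDiff RealInnerProductSpace

variable {n : ℕ}

variable {w : E n → ℝ} {R C : ℝ} {Z : E n × ℝ → E n} {a L : E n × ℝ → ℝ}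

theorem Gauge.flow (h : Gauge w R C Z a L) :
    ∃ η : ℝ, 0 < η ∧ ∃ Φ G, FlowD w (Real.exp (2 * C + 1)) η Φ G := by
  have h0 : (0 : ℝ) ∈ Icc 0 R := ⟨le_rfl, h.R0.le⟩
  have hR : R ∈ Icc 0 R := ⟨h.R0.le, le_rfl⟩
  have eT : ∀ x₀ : E n, x₀ ∈ ball (0 : E n) (4 / 5) →
      ∃ x, Traj Z R x ∧ x 0 = x₀ ∧ ∀ r ∈ Icc 0 R, ‖x r - x₀‖ ≤ 1 / 10 :=
    fun x₀ hx => h.exists_traj h0 hx
  have eS : ∀ x₀ : E n, x₀ ∈ ball (0 : E n) (4 / 5) →
      ∃ x, Traj Z R x ∧ x R = x₀ ∧ ∀ r ∈ Icc 0 R, ‖x r - x₀‖ ≤ 1 / 10 :=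
    fun x₀ hx => h.exists_traj hR hx
  choose! T hT hT0 hTm using eT
  choose! S hS hSR hSm using eS
  obtain ⟨B, hB, hcl⟩ := h.close
  obtain ⟨η, hη, htwo⟩ := h.two
  have hB0 : 0 < B := lt_of_lt_of_le one_pos hB
  have hsub : ∀ x y : E n, x ∈ ball (0 : E n) (3 / 5) → ‖y - x‖ ≤ 1 / 10 →
      y ∈ ball (0 : E n) (4 / 5) := by
    intro x y hx hy
    rw [mem_ball_zero_iff] at hx ⊢
    have h1 : ‖y‖ ≤ ‖y - x‖ + ‖x‖ := by
      have := norm_add_le (y - x) x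
      rwa [sub_add_cancel] at this
    linarith
  have hsub' : ∀ x : E n, x ∈ ball (0 : E n) (3 / 5) → x ∈ ball (0 : E n) (4 / 5) := by
    intro x hx
    rw [mem_ball_zero_iff] at hx ⊢
    linarith
  refine ⟨η / B, div_pos hη hB0, fun x => T x R, fun x => S x 0, ?_, ?_, ?_, ?_⟩
  · intro x hx
    exact ⟨hTm x hx R hR, hSm x hx 0 h0⟩
  · intro x hx
    have hx' := hsub' x hx
    constructor
    · have hy : T x R ∈ ball (0 : E n) (4 / 5) := hsub x _ hx (hTm x hx' R hR)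
      have h1 := (hcl (S (T x R)) (T x) (hS _ hy) (hT x hx') 0 h0).2
      rw [hSR _ hy, sub_self, norm_zero, mul_zero, hT0 x hx'] at h1
      exact sub_eq_zero.1 (norm_le_zero_iff.1 h1)
    · have hy : S x 0 ∈ ball (0 : E n) (4 / 5) := hsub x _ hx (hSm x hx' 0 h0)
      have h1 := (hcl (T (S x 0)) (S x) (hT _ hy) (hS x hx') R hR).1
      rw [hT0 _ hy, sub_self, norm_zero, mul_zero, hSR x hx'] at h1
      exact sub_eq_zero.1 (norm_le_zero_iff.1 h1)
  · intro x hx y hy hxy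
    have h1 : ∀ r ∈ Icc 0 R, ‖T x r - T y r‖ ≤ η := by
      intro r hr
      have h2 := (hcl (T x) (T y) (hT x hx) (hT y hy) r hr).1
      rw [hT0 x hx, hT0 y hy] at h2
      have h3 : B * ‖x - y‖ ≤ B * (η / B) := mul_le_mul_of_nonneg_left hxy hB0.le
      rw [mul_div_cancel₀ _ hB0.ne'] at h3
      exact h2.trans h3
    have h4 := (htwo (T x) (T y) (hT x hx) (hT y hy) h1).1
    rw [hT0 x hx, hT0 y hy] at h4
    exact h4
  · intro x hx y hy hxy
    have h1 : ∀ r ∈ Icc 0 R, ‖S x r - S y r‖ ≤ η := by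
      intro r hr
      have h2 := (hcl (S x) (S y) (hS x hx) (hS y hy) r hr).2
      rw [hSR x hx, hSR y hy] at h2
      have h3 : B * ‖x - y‖ ≤ B * (η / B) := mul_le_mul_of_nonneg_left hxy hB0.le
      rw [mul_div_cancel₀ _ hB0.ne'] at h3
      exact h2.trans h3
    have h4 := (htwo (S x) (S y) (hS x hx) (hS y hy) h1).2
    rw [hSR x hx, hSR y hy] at h4
    exact h4

end Vale.Agent.P242
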