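import Vale.Agent.P242.Defs

/-! P242 FlowA (TASK, owner helper5; helper names start with fla_). Trajectories. `lip`: `Z` is `C²`, so on the compact convex set `closedBall 0 (9/10) ×ˢ Icc 0 R` the maps `Z` and `fderiv Z` are Lipschitz (`ContDiffOn.exists_lipschitzOnWith`); the Taylor bound follows from `Convex.norm_image_sub_le_of_norm_hasFDerivWithin_le` type lemmas for `y ↦ Z (y, r) - fderiv Z (x, r) (y, 0)` on the segment.
`exists_traj`: `IsPicardLindelof` with centre `x₀`, `a = 1/10`, `r = 0`, `L = 1/10` on `Icc 0 R` (`IsPicardLindelof.exists_eq_forall_mem_Icc_hasDerivWithinAt₀`); the movement bound by the mean value inequality (if the theorem does not give membership in the ball, use the integral form or compose with a truncation).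
`close`: `dist_le_of_trajectories_ODE_of_mem` forward, and backward after the time reversal `r ↦ R - r`. -/

namespace Vale.Agent.P242

open MeasureTheory Set Metric Filter Topology
open scoped ENNReal ContDiff RealInnerProductSpace

variable {n : ℕ}

variable {w : E n → ℝ} {R C : ℝ} {Z : E n × ℝ → E n} {a L : E n × ℝ → ℝ}

theorem Gauge.lip (h : Gauge w R C Z a L) : ∃ K : ℝ, 1 ≤ K ∧ ∀ r ∈ Icc 0 R, ∀ x y : E n,
    ‖x‖ ≤ 9 / 10 → ‖y‖ ≤ 9 / 10 → ‖Z (y, r) - Z (x, r)‖ ≤ K * ‖y - x‖ ∧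
      ‖Z (y, r) - Z (x, r) - fderiv ℝ Z (x, r) (y - x, 0)‖ ≤ K * ‖y - x‖ ^ 2 := by
  have hc : Convex ℝ (closedBall (0 : E n) (9 / 10) ×ˢ Icc 0 R) :=
    (convex_closedBall _ _).prod (convex_Icc _ _)
  have hk : IsCompact (closedBall (0 : E n) (9 / 10) ×ˢ Icc 0 R) :=
    (isCompact_closedBall _ _).prod isCompact_Icc
  obtain ⟨K₁, h1⟩ := h.smZ.contDiffOn.exists_lipschitzOnWith two_ne_zero hc hk
  obtain ⟨K₂, h2⟩ := (h.smZ.fderiv_right (m := 1) (by norm_num)).contDiffOn.exists_lipschitzOnWith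
    one_ne_zero hc hk
  have k1 := K₁.coe_nonneg
  have k2 := K₂.coe_nonneg
  refine ⟨1 + K₁ + K₂, by linarith, fun r hr x y hx hy => ?_⟩
  have mx : (x, r) ∈ closedBall (0 : E n) (9 / 10) ×ˢ Icc 0 R := ⟨mem_closedBall_zero_iff.2 hx, hr⟩
  have my : (y, r) ∈ closedBall (0 : E n) (9 / 10) ×ˢ Icc 0 R := ⟨mem_closedBall_zero_iff.2 hy, hr⟩
  have e : (y, r) - (x, r) = (y - x, (0 : ℝ)) := by simp
  have e' : ‖(y, r) - (x, r)‖ = ‖y - x‖ := by simp
  have n0 := norm_nonneg (y - x)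
  constructor
  · have := h1.norm_sub_le my mx
    rw [e'] at this
    nlinarith
  · have := Convex.norm_image_sub_le_of_norm_fderiv_le' (𝕜 := ℝ) (f := Z) (φ := fderiv ℝ Z (x, r))
      (C := K₂ * ‖y - x‖) (fun q _ => h.smZ.differentiable two_ne_zero q) (fun q hq => ?_)
      (hc.inter (convex_closedBall (x, r) ‖y - x‖)) ⟨mx, mem_closedBall_self n0⟩
      ⟨my, mem_closedBall_iff_norm.2 e'.le⟩
    · rw [e', e] at this
      nlinarith [sq_nonneg ‖y - x‖]
    · exact (h2.norm_sub_le hq.1 mx).trans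
        (mul_le_mul_of_nonneg_left (mem_closedBall_iff_norm.1 hq.2) k2)

theorem fla_lip (h : Gauge w R C Z a L) : ∃ K : NNReal, ∀ r ∈ Icc 0 R,
    LipschitzOnWith K (fun x => Z (x, r)) (closedBall 0 (9 / 10)) := by
  obtain ⟨K, hK, h1⟩ := h.lip
  refine ⟨⟨K, by linarith⟩, fun r hr => LipschitzOnWith.of_dist_le_mul fun x hx y hy => ?_⟩
  rw [dist_eq_norm, dist_eq_norm]
  exact (h1 r hr y x (mem_closedBall_zero_iff.1 hy) (mem_closedBall_zero_iff.1 hx)).1

theorem Gauge.exists_traj (h : Gauge w R C Z a L) {t : ℝ} (ht : t ∈ Icc 0 R) {x₀ : E n}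
    (hx : x₀ ∈ ball (0 : E n) (4 / 5)) :
    ∃ x, Traj Z R x ∧ x t = x₀ ∧ ∀ r ∈ Icc 0 R, ‖x r - x₀‖ ≤ 1 / 10 := by
  obtain ⟨K, hK⟩ := fla_lip h
  have hs : ∀ x ∈ closedBall x₀ ((1 / 10 : NNReal) : ℝ), ‖x‖ ≤ 9 / 10 := fun x hx' => by
    have h1 := mem_closedBall_iff_norm.1 hx'
    have h2 := mem_ball_zero_iff.1 hx
    have h3 := norm_le_norm_add_norm_sub' x x₀
    push_cast at h1
    linarith
  have hf : IsPicardLindelof (fun r x => Z (x, r)) (⟨t, ht⟩ : Icc 0 R) x₀ (1 / 10) 0 (1 / 10) K := by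
    refine ⟨fun r hr => (hK r hr).mono fun x hx' => mem_closedBall_zero_iff.2 (hs x hx'),
      fun x _ => (h.smZ.continuous.comp (continuous_const.prodMk continuous_id)).continuousOn,
      fun r hr x hx' => ?_, ?_⟩
    · push_cast
      exact h.bZ x (mem_ball_zero_iff.2 (by linarith [hs x hx'])) r hr
    · have h1 : max (R - t) (t - 0) ≤ 1 := max_le (by linarith [ht.1, h.R1]) (by linarith [ht.2, h.R1])
      push_cast
      linarith
  have hx0 : x₀ ∈ closedBall x₀ ((0 : NNReal) : ℝ) := mem_closedBall_self le_rfl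
  obtain ⟨α, hα⟩ := ODE.FunSpace.exists_isFixedPt_next hf hx0
  have hm := fun r => α.compProj_mem_closedBall hf.mul_max_le (t := r)
  refine ⟨α.compProj, ⟨fun r _ => hs _ (hm r), fun r hr => ?_⟩, ?_, fun r _ => ?_⟩
  · refine (ODE.hasDerivWithinAt_picard_Icc ht hf.continuousOn_uncurry
      α.continuous_compProj.continuousOn (fun r _ => hm r) x₀ hr).congr_of_mem (fun s hs => ?_) hr
    nth_rw 1 [← hα]
    rw [ODE.FunSpace.compProj_of_mem hs, ODE.FunSpace.next_apply]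
  · rw [ODE.FunSpace.compProj_of_mem ht, ← hα, ODE.FunSpace.next_apply₀]
  · have h1 := mem_closedBall_iff_norm.1 (hm r)
    push_cast at h1
    exact h1

theorem fla_fwd {K : NNReal} {V : ℝ → E n → E n} {S : Set (E n)}
    (hV : ∀ r ∈ Icc 0 R, LipschitzOnWith K (V r) S) {x y : ℝ → E n}
    (hx : ∀ r ∈ Icc 0 R, x r ∈ S ∧ HasDerivWithinAt x (V r (x r)) (Icc 0 R) r)
    (hy : ∀ r ∈ Icc 0 R, y r ∈ S ∧ HasDerivWithinAt y (V r (y r)) (Icc 0 R) r) {r : ℝ}
    (hr : r ∈ Icc 0 R) : ‖x r - y r‖ ≤ Real.exp (K * R) * ‖x 0 - y 0‖ := by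
  have h1 := dist_le_of_trajectories_ODE_of_mem (s := fun _ => S)
    (fun t ht => hV t (Ico_subset_Icc_self ht)) (fun t ht => (hx t ht).2.continuousWithinAt)
    (fun t ht => (hx t (Ico_subset_Icc_self ht)).2.mono_of_mem_nhdsWithin (Icc_mem_nhdsGE_of_mem ht))
    (fun t ht => (hx t (Ico_subset_Icc_self ht)).1) (fun t ht => (hy t ht).2.continuousWithinAt)
    (fun t ht => (hy t (Ico_subset_Icc_self ht)).2.mono_of_mem_nhdsWithin (Icc_mem_nhdsGE_of_mem ht))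
    (fun t ht => (hy t (Ico_subset_Icc_self ht)).1) le_rfl r hr
  rw [dist_eq_norm, dist_eq_norm, mul_comm, sub_zero] at h1
  refine h1.trans (mul_le_mul_of_nonneg_right (Real.exp_le_exp.2 ?_) (norm_nonneg _))
  exact mul_le_mul_of_nonneg_left hr.2 K.coe_nonneg

theorem fla_rev {x : ℝ → E n} (hx : Traj Z R x) {r : ℝ} (hr : r ∈ Icc 0 R) :
    x (R - r) ∈ closedBall (0 : E n) (9 / 10) ∧
      HasDerivWithinAt (fun r => x (R - r)) (-Z (x (R - r), R - r)) (Icc 0 R) r := by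
  have hm : MapsTo (fun r => R - r) (Icc 0 R) (Icc 0 R) := fun s hs =>
    ⟨sub_nonneg.2 hs.2, sub_le_self _ hs.1⟩
  refine ⟨mem_closedBall_zero_iff.2 (hx.mem _ (hm hr)), ?_⟩
  have h1 := (hx.der _ (hm hr)).scomp r ((hasDerivWithinAt_id r (Icc 0 R)).const_sub R) hm
  rw [neg_one_smul] at h1
  exact h1

theorem Gauge.close (h : Gauge w R C Z a L) : ∃ B : ℝ, 1 ≤ B ∧ ∀ x y, Traj Z R x → Traj Z R y →
    ∀ r ∈ Icc 0 R, ‖x r - y r‖ ≤ B * ‖x 0 - y 0‖ ∧ ‖x r - y r‖ ≤ B * ‖x R - y R‖ := by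
  obtain ⟨K, hK⟩ := fla_lip h
  refine ⟨Real.exp (K * R), Real.one_le_exp (mul_nonneg K.coe_nonneg h.R0.le),
    fun x y hx hy r hr => ⟨?_, ?_⟩⟩
  · exact fla_fwd hK (fun t ht => ⟨mem_closedBall_zero_iff.2 (hx.mem t ht), hx.der t ht⟩)
      (fun t ht => ⟨mem_closedBall_zero_iff.2 (hy.mem t ht), hy.der t ht⟩) hr
  · have h1 := fla_fwd (V := fun t x => -Z (x, R - t))
      (fun t ht => (hK (R - t) ⟨sub_nonneg.2 ht.2, sub_le_self _ ht.1⟩).neg)
      (fun t ht => fla_rev hx ht) (fun t ht => fla_rev hy ht)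
      (r := R - r) ⟨sub_nonneg.2 hr.2, sub_le_self _ hr.1⟩
    simpa only [sub_sub_cancel, sub_zero] using h1

end Vale.Agent.P242
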