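import Vale.Agent.P242.FlowA

/-! P242 FlowB (TASK, owner helper5; helper names start with flb_). Two point estimate. Let `z = y - x`, `K` from `lip`, `η = 1 / K`. For `σ = 1` and `σ = -1` consider `q r = ‖z r‖^2 * exp (2 a (x r, r) - σ (2 C L (x r, r) + 2 r))`. On `Ioo 0 R` the trajectories are differentiable, the chain rule gives
`deriv q = exp (..) * (2 ⟪z, Z (y) - Z (x)⟫ + ‖z‖^2 (2 da - σ (2 C dL + 2)))`, and `key` with `v = z r` and the Taylor bound show `σ * deriv q ≤ 0` (`antitoneOn_of_deriv_nonpos`, `monotoneOn_of_deriv_nonneg`). Use `a0`, `aR`, `bL`, `R ≤ 1`, then take square roots (`pow_le_pow_left₀`, `abs_le_of_sq_le`). -/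

namespace Vale.Agent.P242

open MeasureTheory Set Metric Filter Topology
open scoped ENNReal ContDiff RealInnerProductSpace

variable {n : ℕ}

variable {w : E n → ℝ} {R C : ℝ} {Z : E n × ℝ → E n} {a L : E n × ℝ → ℝ}

theorem flb_sq {s t α β γ δ : ℝ} (ht : 0 ≤ t) (h : s ^ 2 * Real.exp α ≤ t ^ 2 * Real.exp β)
    (hγ : β + (2 * γ - α) ≤ 2 * δ) : Real.exp γ * s ≤ Real.exp δ * t := by
  refine le_of_pow_le_pow_left₀ two_ne_zero (by positivity) ?_
  have e1 : (Real.exp γ * s) ^ 2 = s ^ 2 * Real.exp α * Real.exp (2 * γ - α) := by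
    rw [mul_assoc, ← Real.exp_add, mul_pow, ← Real.exp_nat_mul, mul_comm]
    congr 2
    push_cast
    ring
  have e2 : (Real.exp δ * t) ^ 2 = t ^ 2 * Real.exp (2 * δ) := by
    rw [mul_pow, ← Real.exp_nat_mul, mul_comm]
    rfl
  rw [e1, e2]
  refine (mul_le_mul_of_nonneg_right h (Real.exp_pos _).le).trans ?_
  rw [mul_assoc, ← Real.exp_add]
  exact mul_le_mul_of_nonneg_left (Real.exp_le_exp.2 hγ) (sq_nonneg t)

theorem flb_anti (h : Gauge w R C Z a L) {K σ : ℝ} (hσ : σ = 1 ∨ σ = -1)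
    (hK : ∀ r ∈ Icc 0 R, ∀ x y : E n, ‖x‖ ≤ 9 / 10 → ‖y‖ ≤ 9 / 10 →
      ‖Z (y, r) - Z (x, r) - fderiv ℝ Z (x, r) (y - x, 0)‖ ≤ K * ‖y - x‖ ^ 2)
    {x y : ℝ → E n} (hx : Traj Z R x) (hy : Traj Z R y)
    (hc : ∀ r ∈ Icc 0 R, K * ‖y r - x r‖ ≤ 1) :
    AntitoneOn (fun r => σ * (‖y r - x r‖ ^ 2 *
      Real.exp (2 * a (x r, r) - σ * (2 * C * L (x r, r) + 2 * r)))) (Icc 0 R) := by
  have hd : ∀ r ∈ Icc 0 R, HasDerivWithinAt (fun r => σ * (‖y r - x r‖ ^ 2 *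
      Real.exp (2 * a (x r, r) - σ * (2 * C * L (x r, r) + 2 * r))))
      (σ * (2 * ⟪y r - x r, Z (y r, r) - Z (x r, r)⟫ *
        Real.exp (2 * a (x r, r) - σ * (2 * C * L (x r, r) + 2 * r)) + ‖y r - x r‖ ^ 2 *
        (Real.exp (2 * a (x r, r) - σ * (2 * C * L (x r, r) + 2 * r)) *
          (2 * fderiv ℝ a (x r, r) (Z (x r, r), 1) -
            σ * (2 * C * fderiv ℝ L (x r, r) (Z (x r, r), 1) + 2 * 1))))) (Icc 0 R) r := by
    intro r hr
    have h1 := (hx.der r hr).prodMk (hasDerivWithinAt_id r (Icc 0 R))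
    have h2 := HasFDerivAt.comp_hasDerivWithinAt (f := fun s => (x s, s)) r
      (h.sma.differentiable one_ne_zero (x r, r)).hasFDerivAt h1
    have h3 := HasFDerivAt.comp_hasDerivWithinAt (f := fun s => (x s, s)) r
      (h.smL.differentiable one_ne_zero (x r, r)).hasFDerivAt h1
    have h4 := ((hy.der r hr).sub (hx.der r hr)).norm_sq
    have h5 := ((h2.const_mul 2).sub (((h3.const_mul (2 * C)).add
      ((hasDerivWithinAt_id r (Icc 0 R)).const_mul 2)).const_mul σ)).exp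
    exact (h4.mul h5).const_mul σ
  refine antitoneOn_of_hasDerivWithinAt_nonpos (convex_Icc 0 R)
    (fun r hr => (hd r hr).continuousWithinAt)
    (fun r hr => (hd r (interior_subset hr)).mono interior_subset) fun r hr => ?_
  have hr' := interior_subset hr
  rw [interior_Icc] at hr
  have k1 := h.key (x r) (mem_ball_zero_iff.2 (by linarith [hx.mem r hr'])) r hr (y r - x r)
  have k2 := (abs_real_inner_le_norm (y r - x r) _).trans (mul_le_mul_of_nonneg_left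
    (hK r hr' _ _ (hx.mem r hr') (hy.mem r hr')) (norm_nonneg _))
  have k3 := mul_le_mul_of_nonneg_right (hc r hr') (sq_nonneg ‖y r - x r‖)
  rw [inner_sub_right] at k2
  have k4 := Real.exp_pos (2 * a (x r, r) - σ * (2 * C * L (x r, r) + 2 * r))
  generalize Real.exp (2 * a (x r, r) - σ * (2 * C * L (x r, r) + 2 * r)) = e at k4 ⊢
  generalize ⟪y r - x r, Z (y r, r) - Z (x r, r)⟫ = I at k2 ⊢
  generalize fderiv ℝ a (x r, r) (Z (x r, r), 1) = da at k1 ⊢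
  generalize fderiv ℝ L (x r, r) (Z (x r, r), 1) = dL at k1 ⊢
  rw [abs_le] at k1 k2
  have k5 : σ * (I + da * ‖y r - x r‖ ^ 2) ≤ C * dL * ‖y r - x r‖ ^ 2 + ‖y r - x r‖ ^ 2 := by
    rcases hσ with rfl | rfl <;> linarith [k1.1, k1.2, k2.1, k2.2]
  have k6 := mul_le_mul_of_nonneg_left k5 k4.le
  rcases hσ with rfl | rfl <;> linarith

theorem Gauge.two (h : Gauge w R C Z a L) : ∃ η : ℝ, 0 < η ∧ ∀ x y, Traj Z R x → Traj Z R y →
    (∀ r ∈ Icc 0 R, ‖x r - y r‖ ≤ η) →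
      ‖x R - y R‖ ≤ Real.exp (2 * C + 1) * Real.exp (w (x 0)) * ‖x 0 - y 0‖ ∧
      Real.exp (w (x 0)) * ‖x 0 - y 0‖ ≤ Real.exp (2 * C + 1) * ‖x R - y R‖ := by
  obtain ⟨K, K1, hK⟩ := h.lip
  have K0 : 0 < K := by linarith
  refine ⟨1 / K, by positivity, fun x y hx hy hc => ?_⟩
  have hc' : ∀ r ∈ Icc 0 R, K * ‖y r - x r‖ ≤ 1 := fun r hr => by
    have := hc r hr
    rwa [le_div_iff₀ K0, mul_comm, norm_sub_rev] at this
  have m0 : (0 : ℝ) ∈ Icc 0 R := left_mem_Icc.2 h.R0.le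
  have mR : R ∈ Icc 0 R := right_mem_Icc.2 h.R0.le
  have b0 : x 0 ∈ ball (0 : E n) 1 := mem_ball_zero_iff.2 (by linarith [hx.mem 0 m0])
  have bR : x R ∈ ball (0 : E n) 1 := mem_ball_zero_iff.2 (by linarith [hx.mem R mR])
  have a1 := flb_anti h (Or.inl rfl) (fun r hr x y h1 h2 => (hK r hr x y h1 h2).2) hx hy hc'
    m0 mR h.R0.le
  have a2 := flb_anti h (Or.inr rfl) (fun r hr x y h1 h2 => (hK r hr x y h1 h2).2) hx hy hc'
    m0 mR h.R0.le
  simp only [one_mul, h.a0] at a1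
  simp only [neg_one_mul, neg_le_neg_iff, h.a0] at a2
  have l0 := mul_nonneg h.C0 (h.bL _ b0 0 m0).1
  have lR := mul_le_mul_of_nonneg_left (h.bL _ bR R mR).2 h.C0
  have aR := abs_le.1 (h.aR _ bR)
  have R1 := h.R1
  rw [norm_sub_rev (x R), norm_sub_rev (x 0)]
  constructor
  · have := flb_sq (γ := 0) (δ := 2 * C + 1 + w (x 0)) (norm_nonneg _) a1 (by linarith [aR.1])
    rwa [Real.exp_zero, one_mul, Real.exp_add] at this
  · exact flb_sq (norm_nonneg _) a2 (by linarith [aR.2])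

end Vale.Agent.P242
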