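import Vale.Agent.P242.Calc

/-! P242 Ibp (TASK, owner helper5; helper names start with ibp_). Integration by parts against radial kernels.
`Prof.deriv`: `g = 0` on `Ici b`, so `deriv g = 0` on `Ioi b` and by continuity at `b`. `integrable_rad`: continuous with support in `closedBall 0 (|b| + 1)` (`Continuous.integrable_of_hasCompactSupport`, `HasCompactSupport.intro`).
`ibp`: `integral_mul_fderiv_eq_neg_fderiv_mul_of_integrable`. `ibp_eu`: `eu f p = ∑ i, p i * pd i f p` (`D_eq_sum`), `ibp` with the kernel `p i * k p`. `ibp_lap`: `ibp` twice for each coordinate.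
`I_lap`: `ibp` once for each coordinate with `D_rad`, `EuclideanSpace.inner_single_right`. -/

namespace Vale.Agent.P242

open MeasureTheory Set Metric Filter Topology
open scoped ENNReal ContDiff RealInnerProductSpace

variable {n : ℕ}

variable {f k : E n → ℝ} {g : ℝ → ℝ} {b : ℝ}

theorem Prof.deriv (h : Prof b g) : Prof b (deriv g) := by
  have h1 : ContDiff ℝ ∞ (_root_.deriv g) := (contDiff_infty_iff_deriv.1 h.1).2
  have h2 : EqOn (_root_.deriv g) (fun _ => 0) (Ioi b) := by
    intro s hs
    have h3 : g =ᶠ[𝓝 s] fun _ => 0 := by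
      filter_upwards [Ioi_mem_nhds hs] with t ht
      exact h.2 t (le_of_lt ht)
    rw [h3.deriv_eq, deriv_const]
  have h3 := h2.closure h1.continuous continuous_const
  rw [closure_Ioi] at h3
  exact ⟨h1, fun s hs => h3 hs⟩

theorem Prof.eta (h : Prof b g) : Prof b (eta g) := by
  refine ⟨contDiff_const.mul h.deriv.1, fun s hs => ?_⟩
  rw [Vale.Agent.P242.eta, h.deriv.2 s hs, mul_zero]

theorem Prof.kap (h : Prof b g) : Prof b (kap n g) := by
  have h0 := h.1
  have h1 := h.deriv.1
  have h2 := h.deriv.deriv.1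
  refine ⟨?_, fun s hs => ?_⟩
  · unfold Vale.Agent.P242.kap
    refine ContDiff.div_const ?_ 2
    fun_prop
  · rw [Vale.Agent.P242.kap, h.deriv.deriv.2 s hs, h.deriv.2 s hs, h.2 s hs]
    ring

theorem Prof.bdd (h : Prof b g) : ∃ c, 1 ≤ c ∧ ∀ s, 0 ≤ s → |g s| ≤ c := by
  obtain ⟨C, hC⟩ := (isCompact_Icc (a := 0) (b := b)).exists_bound_of_continuousOn
    h.1.continuous.continuousOn
  refine ⟨max 1 C, le_max_left _ _, fun s hs => ?_⟩
  rcases le_total s b with hb | hb
  · exact (hC s ⟨hs, hb⟩).trans (le_max_right _ _)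
  · rw [h.2 s hb, abs_zero]
    exact zero_le_one.trans (le_max_left _ _)

theorem Prof.smooth (h : Prof b g) : ContDiff ℝ ∞ (fun p : E n => g (‖p‖ ^ 2)) ∧
    HasCompactSupport (fun p : E n => g (‖p‖ ^ 2)) := by
  refine ⟨h.1.comp (contDiff_norm_sq ℝ), ?_⟩
  refine HasCompactSupport.intro (isCompact_closedBall 0 (|b| + 1)) fun p hp => h.2 _ ?_
  rw [mem_closedBall_zero_iff, not_le] at hp
  nlinarith [le_abs_self b, abs_nonneg b]

theorem ibp_int (hf : Continuous f) (hk : Continuous k) (hc : HasCompactSupport k) :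
    Integrable (fun p => f p * k p) :=
  (hf.mul hk).integrable_of_hasCompactSupport hc.mul_left

theorem ibp_cs (hc : HasCompactSupport k) (v : E n) : HasCompactSupport (D v k) :=
  hc.fderiv_apply ℝ v

theorem integrable_rad (h : Prof b g) (hf : Continuous f) :
    Integrable (fun p : E n => f p * g (‖p‖ ^ 2)) := by
  exact ibp_int hf h.smooth.1.continuous h.smooth.2

theorem D_rad (h : ContDiff ℝ ∞ g) (v p : E n) :
    D v (fun p : E n => g (‖p‖ ^ 2)) p = 2 * deriv g (‖p‖ ^ 2) * ⟪p, v⟫ := by
  have h1 := (h.differentiable (by simp) (‖p‖ ^ 2)).hasDerivAt.comp_hasFDerivAt p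
    (hasStrictFDerivAt_norm_sq p).hasFDerivAt
  have h2 : fderiv ℝ (fun p : E n => g (‖p‖ ^ 2)) p = _ := h1.fderiv
  rw [D, h2]
  simp only [smul_apply, innerSL_apply_apply, smul_eq_mul, nsmul_eq_mul,
    Nat.cast_ofNat]
  ring

theorem ibp (hf : ContDiff ℝ ∞ f) (hk : ContDiff ℝ ∞ k) (hc : HasCompactSupport k) (v : E n) :
    ∫ p, D v f p * k p = -∫ p, f p * D v k p := by
  have h := integral_mul_fderiv_eq_neg_fderiv_mul_of_integrable (μ := volume) (v := v)
    (ibp_int (smooth_D hf v).continuous hk.continuous hc)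
    (ibp_int hf.continuous (smooth_D hk v).continuous (ibp_cs hc v))
    (ibp_int hf.continuous hk.continuous hc) (fun x _ => hf.differentiable (by simp) x)
    (fun x _ => hk.differentiable (by simp) x)
  simp only [D]
  rw [h, neg_neg]

theorem ibp_co (hk : ContDiff ℝ ∞ k) (i : Fin n) (p : E n) :
    D (EuclideanSpace.single i 1) (fun p : E n => p i * k p) p = p i * pd i k p + k p := by
  have h1 := (EuclideanSpace.proj i : E n →L[ℝ] ℝ).hasFDerivAt.mul
    (hk.differentiable (by simp) p).hasFDerivAt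
  have h2 : fderiv ℝ (fun p : E n => p i * k p) p = _ := h1.fderiv
  rw [D, h2, pd]
  simp

theorem ibp_eu (hf : ContDiff ℝ ∞ f) (hk : ContDiff ℝ ∞ k) (hc : HasCompactSupport k) :
    ∫ p, eu f p * k p = -∫ p, f p * (eu k p + n * k p) := by
  have hs : ∀ i, ContDiff ℝ ∞ fun p : E n => p i * k p := fun i =>
    (EuclideanSpace.proj i : E n →L[ℝ] ℝ).contDiff.mul hk
  have hcs : ∀ i, HasCompactSupport fun p : E n => p i * k p := fun i => hc.mul_left
  have e1 : ∀ p, eu f p * k p = ∑ i, D (EuclideanSpace.single i 1) f p * (p i * k p) := by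
    intro p
    change D p f p * k p = ∑ i, pd i f p * (p i * k p)
    rw [D_eq_sum, Finset.sum_mul]
    exact Finset.sum_congr rfl fun i _ => by ring
  have e2 : ∀ p, f p * (eu k p + n * k p) =
      ∑ i, f p * D (EuclideanSpace.single i 1) (fun p : E n => p i * k p) p := by
    intro p
    change f p * (D p k p + n * k p) = _
    simp only [ibp_co hk, ← Finset.mul_sum, Finset.sum_add_distrib, Finset.sum_const,
      Finset.card_univ, Fintype.card_fin, nsmul_eq_mul, D_eq_sum k p p]
  simp only [e1, e2]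
  rw [integral_finsetSum _ fun i _ =>
      ibp_int (smooth_D hf _).continuous (hs i).continuous (hcs i),
    integral_finsetSum _ fun i _ =>
      ibp_int hf.continuous (smooth_D (hs i) _).continuous (ibp_cs (hcs i) _),
    ← Finset.sum_neg_distrib]
  exact Finset.sum_congr rfl fun i _ => ibp hf (hs i) (hcs i) _

theorem ibp_lap (hf : ContDiff ℝ ∞ f) (hk : ContDiff ℝ ∞ k) (hc : HasCompactSupport k) :
    ∫ p, lap f p * k p = ∫ p, f p * lap k p := by
  simp only [lap, Finset.sum_mul, Finset.mul_sum]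
  rw [integral_finsetSum (f := fun i p => pd i (pd i f) p * k p) _ fun i _ =>
      ibp_int (smooth_D (smooth_D hf _) _).continuous hk.continuous hc,
    integral_finsetSum (f := fun i p => f p * pd i (pd i k) p) _ fun i _ =>
      ibp_int hf.continuous (smooth_D (smooth_D hk _) _).continuous (ibp_cs (ibp_cs hc _) _)]
  refine Finset.sum_congr rfl fun i _ => ?_
  have h1 := ibp (smooth_D hf (EuclideanSpace.single i 1)) hk hc (EuclideanSpace.single i 1)
  rw [ibp hf (smooth_D hk _) (ibp_cs hc _), neg_neg] at h1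
  exact h1

theorem I_D (h : Prof b g) (hf : ContDiff ℝ ∞ f) (v : E n) :
    I g (D v f) = -2 * I (deriv g) fun p => f p * ⟪p, v⟫ := by
  simp only [I]
  rw [ibp hf h.smooth.1 h.smooth.2, ← integral_const_mul, ← integral_neg]
  refine integral_congr_ae (Eventually.of_forall fun p => ?_)
  simp only [D_rad h.1]
  ring

theorem I_eu (h : Prof b g) (hf : ContDiff ℝ ∞ f) :
    I g (eu f) = -I (fun s => 2 * s * deriv g s + n * g s) f := by
  simp only [I]
  rw [ibp_eu hf h.smooth.1 h.smooth.2, neg_inj]
  refine integral_congr_ae (Eventually.of_forall fun p => ?_)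
  have e : eu (fun p : E n => g (‖p‖ ^ 2)) p = _ := D_rad h.1 p p
  simp only [e, real_inner_self_eq_norm_sq]
  ring

theorem I_lap (h : Prof b g) (hf : ContDiff ℝ ∞ f) : I g (lap f) = -2 * I (deriv g) (eu f) := by
  have h1 : ∀ i, ∫ p, pd i (pd i f) p * g (‖p‖ ^ 2) =
      -2 * ∫ p, p i * pd i f p * deriv g (‖p‖ ^ 2) := by
    intro i
    refine (I_D h (smooth_D hf (EuclideanSpace.single i 1)) (EuclideanSpace.single i 1)).trans ?_
    refine congrArg (-2 * ·) (integral_congr_ae (Eventually.of_forall fun p => ?_))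
    simp only [EuclideanSpace.inner_single_right, conj_trivial, one_mul]
    rw [mul_comm (p i)]
    rfl
  have e1 : ∀ p, eu f p = ∑ i, p i * pd i f p := fun p => D_eq_sum f p p
  simp only [I, lap, e1, Finset.sum_mul]
  rw [integral_finsetSum (f := fun i p => pd i (pd i f) p * g (‖p‖ ^ 2)) _ fun i _ =>
      integrable_rad h (smooth_D (smooth_D hf _) _).continuous,
    integral_finsetSum (f := fun i (p : E n) => p i * pd i f p * deriv g (‖p‖ ^ 2)) _ fun i _ =>
      integrable_rad h.deriv
        ((EuclideanSpace.proj i : E n →L[ℝ] ℝ).continuous.mul (smooth_D hf _).continuous),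
    Finset.mul_sum]
  exact Finset.sum_congr rfl fun i _ => h1 i

end Vale.Agent.P242
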