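import Vale.Agent.P242.Ibp

/-! P242 IdB (TASK, owner helper5; helper names start with idb_). The gauge identity. Put `h p = 2 ψ1 ‖v‖^2 + 4 ψ2 ⟪p,v⟫^2 = D v (D v ψhat) p` with `ψhat p = ψ (‖p‖^2)`.
Term A: `D p (D p W) p = eu (eu W) p - eu W p =: A p`. By `ibp` twice `∫ A * h = ∫ D v (D v A) * ψhat`, and `D v (eu f) = eu (D v f) + D v f` gives `D v (D v A) = eu (eu U) + 3 eu U + 2 U` with `U = D v (D v W)`; `I_eu` twice gives `I κA U`, `κA = 4 s^2 ψ2 + (4n-2) s ψ1 + (n-1)(n-2) ψ`.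
Term B: let `Ψ` be a profile with derivative `ψ` (`exists_prim`), `γ s = s ψ s - 2 Ψ s`, so `γ1 = s ψ1 - ψ`, `γ2 = s ψ2`; then `‖p‖^2 h p = D v (D v γhat) p + 2 ψ ‖v‖^2` (`D_rad` twice). `∫ lap W * D v (D v γhat) = I γ (D v (D v (lap W))) = I γ (lap U) = I κB U` with `κB = 2 n γ1 + 4 s γ2` (`D_lap`, `I_lap`, `I_eu`). -/

namespace Vale.Agent.P242

open MeasureTheory Set Metric Filter Topology
open scoped ENNReal ContDiff RealInnerProductSpace

variable {n : ℕ}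

variable {W : E n → ℝ} {g ψ : ℝ → ℝ} {b : ℝ}

theorem exists_prim (h : Prof b g) : ∃ G, Prof b G ∧ ∀ s, deriv G s = g s := by
  have hc : Continuous g := h.1.continuous
  have hd : ∀ s, HasDerivAt (fun u => ∫ x in b..u, g x) (g s) s := fun s =>
    (hc.integral_hasStrictDerivAt b s).hasDerivAt
  have he : deriv (fun u => ∫ x in b..u, g x) = g := funext fun s => (hd s).deriv
  refine ⟨fun u => ∫ x in b..u, g x, ⟨?_, fun s hs => ?_⟩, fun s => (hd s).deriv⟩
  · rw [contDiff_infty_iff_deriv, he]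
    exact ⟨fun s => (hd s).differentiableAt, h.1⟩
  · have : ∫ x in b..s, g x = ∫ _ in b..s, (0 : ℝ) := by
      refine intervalIntegral.integral_congr fun x hx => h.2 x ?_
      rw [uIcc_of_le hs] at hx
      exact hx.1
    simpa using this

theorem idb_diff {F : Type} [NormedAddCommGroup F] [NormedSpace ℝ F] {G : Type}
    [NormedAddCommGroup G] [NormedSpace ℝ G] {f : F → G} (hf : ContDiff ℝ ∞ f) :
    Differentiable ℝ f := hf.differentiable (by simp)

theorem idb_D_add {f k : E n → ℝ} (hf : ContDiff ℝ ∞ f) (hk : ContDiff ℝ ∞ k) (v : E n) :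
    D v (fun p => f p + k p) = fun p => D v f p + D v k p := by
  funext p
  unfold D
  rw [fderiv_fun_add (idb_diff hf p) (idb_diff hk p)]
  rfl

theorem idb_D_eu {f : E n → ℝ} (hf : ContDiff ℝ ∞ f) (v : E n) :
    D v (eu f) = fun p => eu (D v f) p + D v f p := by
  funext p
  have h1 : DifferentiableAt ℝ (fderiv ℝ f) p :=
    idb_diff (hf.fderiv_right (m := ∞) (by simp)) p
  have h2 : D v (eu f) p = fderiv ℝ (fderiv ℝ f) p v p + fderiv ℝ f p v := by
    have h3 : HasFDerivAt (fun x => fderiv ℝ f x x) _ p :=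
      h1.hasFDerivAt.clm_apply (hasFDerivAt_id p)
    show fderiv ℝ (fun x => fderiv ℝ f x x) p v = _
    rw [h3.fderiv]
    simp [add_comm]
  rw [h2, eu_D hf, D_comm hf p v, D2_eq hf]
  rfl

theorem idb_DD_eu {f : E n → ℝ} (hf : ContDiff ℝ ∞ f) (v : E n) :
    D v (D v (eu f)) = fun p => eu (D v (D v f)) p + 2 * D v (D v f) p := by
  rw [idb_D_eu hf, idb_D_add (smooth_eu (smooth_D hf v)) (smooth_D hf v),
    idb_D_eu (smooth_D hf v)]
  funext p
  ring

theorem idb_DD_rad (h : ContDiff ℝ ∞ g) (v p : E n) :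
    D v (D v fun p : E n => g (‖p‖ ^ 2)) p =
      2 * deriv g (‖p‖ ^ 2) * ‖v‖ ^ 2 + 4 * deriv (deriv g) (‖p‖ ^ 2) * ⟪p, v⟫ ^ 2 := by
  have h1 : ContDiff ℝ ∞ (deriv g) := (contDiff_infty_iff_deriv.1 h).2
  have e : (D v fun p : E n => g (‖p‖ ^ 2)) = fun p : E n => 2 * deriv g (‖p‖ ^ 2) * ⟪p, v⟫ :=
    funext fun p => D_rad h v p
  have a1 : DifferentiableAt ℝ (fun p : E n => deriv g (‖p‖ ^ 2)) p :=
    idb_diff (h1.comp (contDiff_norm_sq ℝ)) p
  have a2 : HasFDerivAt (fun p : E n => ⟪p, v⟫) (innerSL ℝ v) p := by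
    have : (fun p : E n => ⟪p, v⟫) = fun p : E n => innerSL ℝ v p :=
      funext fun p => by rw [innerSL_apply_apply, real_inner_comm]
    rw [this]
    exact (innerSL ℝ v).hasFDerivAt
  have a3 := (a1.hasFDerivAt.const_mul 2).mul a2
  have a4 := D_rad h1 v p
  rw [e]
  unfold D at a4 ⊢
  have a5 : fderiv ℝ (fun p : E n => 2 * deriv g (‖p‖ ^ 2) * ⟪p, v⟫) p = _ := a3.fderiv
  rw [a5]
  simp only [add_apply, smul_apply, smul_eq_mul, a4,
    innerSL_apply_apply, real_inner_self_eq_norm_sq]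
  ring

theorem idb_J (h : Prof b g) {f : E n → ℝ} (hf : ContDiff ℝ ∞ f) (v : E n) :
    ∫ p : E n, f p * (2 * deriv g (‖p‖ ^ 2) * ‖v‖ ^ 2 + 4 * deriv (deriv g) (‖p‖ ^ 2) * ⟪p, v⟫ ^ 2) =
      I g (D v (D v f)) := by
  obtain ⟨k1, k2⟩ := h.smooth (n := n)
  have k3 : HasCompactSupport (D v fun p : E n => g (‖p‖ ^ 2)) := k2.fderiv_apply ℝ v
  unfold I
  rw [ibp (smooth_D hf v) k1 k2 v, ibp hf (smooth_D k1 v) k3 v, neg_neg]
  refine integral_congr_ae (Eventually.of_forall fun p => ?_)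
  simp only [idb_DD_rad h.1]

theorem idb_int (h : Prof b g) {f : E n → ℝ} (hf : ContDiff ℝ ∞ f) (v : E n) :
    Integrable fun p : E n =>
      f p * (2 * deriv g (‖p‖ ^ 2) * ‖v‖ ^ 2 + 4 * deriv (deriv g) (‖p‖ ^ 2) * ⟪p, v⟫ ^ 2) := by
  have c := hf.continuous
  have i1 := integrable_rad (f := fun p => f p * (2 * ‖v‖ ^ 2)) h.deriv (by fun_prop)
  have i2 := integrable_rad (f := fun p => f p * (4 * ⟪p, v⟫ ^ 2)) h.deriv.deriv (by fun_prop)
  refine (i1.add i2).congr (Eventually.of_forall fun p => ?_)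
  simp only [Pi.add_apply]
  ring

theorem idb_prof (h : Prof b g) (c : ℝ) : Prof b fun s => 2 * s * deriv g s + c * g s := by
  refine ⟨((contDiff_const.mul contDiff_id).mul h.deriv.1).add (contDiff_const.mul h.1),
    fun s hs => ?_⟩
  simp only [h.2 s hs, h.deriv.2 s hs, mul_zero, add_zero]

theorem idb_deriv (h : Prof b g) (c s : ℝ) : deriv (fun s => 2 * s * deriv g s + c * g s) s =
    2 * deriv g s + 2 * s * deriv (deriv g) s + c * deriv g s := by
  have a1 := (idb_diff h.1 s).hasDerivAt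
  have a2 := (idb_diff h.deriv.1 s).hasDerivAt
  have a3 := ((((hasDerivAt_id s).const_mul 2).mul a2).add (a1.const_mul c)).deriv
  refine Eq.trans ?_ (a3.trans ?_)
  · rfl
  · simp

theorem idb_eu (h : Prof b g) {f : E n → ℝ} (hf : ContDiff ℝ ∞ f) (v : E n) :
    I g (D v (D v (eu f))) =
      -I (fun s => 2 * s * deriv g s + ((n : ℝ) - 2) * g s) (D v (D v f)) := by
  have hU := smooth_D (smooth_D hf v) v
  have e1 := I_eu h hU
  have i1 := integrable_rad h (smooth_eu hU).continuous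
  have i2 := integrable_rad h hU.continuous
  have i3 := integrable_rad (idb_prof h n) hU.continuous
  rw [idb_DD_eu hf]
  unfold I at e1 ⊢
  have e2 : ∫ p : E n, (eu (D v (D v f)) p + 2 * D v (D v f) p) * g (‖p‖ ^ 2) =
      (∫ p : E n, eu (D v (D v f)) p * g (‖p‖ ^ 2)) + 2 * ∫ p : E n, D v (D v f) p * g (‖p‖ ^ 2) := by
    rw [← integral_const_mul, ← integral_add i1 (i2.const_mul 2)]
    refine integral_congr_ae (Eventually.of_forall fun p => ?_)
    simp only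
    ring
  have e3 : ∫ p : E n, D v (D v f) p *
      (2 * ‖p‖ ^ 2 * deriv g (‖p‖ ^ 2) + ((n : ℝ) - 2) * g (‖p‖ ^ 2)) =
      (∫ p : E n, D v (D v f) p * (2 * ‖p‖ ^ 2 * deriv g (‖p‖ ^ 2) + n * g (‖p‖ ^ 2))) -
        2 * ∫ p : E n, D v (D v f) p * g (‖p‖ ^ 2) := by
    rw [← integral_const_mul, ← integral_sub i3 (i2.const_mul 2)]
    refine integral_congr_ae (Eventually.of_forall fun p => ?_)
    simp only
    ring
  rw [e2, e3, e1]
  ring

theorem idb_gam (h : Prof b ψ) : ∃ γ, Prof b γ ∧ (∀ s, deriv γ s = s * deriv ψ s - ψ s) ∧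
    ∀ s, deriv (deriv γ) s = s * deriv (deriv ψ) s := by
  obtain ⟨G, hG, hG'⟩ := exists_prim h
  have e1 : ∀ s, deriv (fun s => s * ψ s - 2 * G s) s = s * deriv ψ s - ψ s := fun s => by
    have a1 := (idb_diff h.1 s).hasDerivAt
    have a2 := (idb_diff hG.1 s).hasDerivAt
    have a3 := (((hasDerivAt_id s).mul a1).sub (a2.const_mul 2)).deriv
    refine Eq.trans ?_ (a3.trans ?_)
    · rfl
    · simp only [hG', id]
      ring
  refine ⟨fun s => s * ψ s - 2 * G s, ⟨(contDiff_id.mul h.1).sub (contDiff_const.mul hG.1),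
    fun s hs => ?_⟩, e1, fun s => ?_⟩
  · simp only [h.2 s hs, hG.2 s hs, mul_zero, sub_zero]
  · rw [funext e1]
    have a1 := (idb_diff h.1 s).hasDerivAt
    have a2 := (idb_diff h.deriv.1 s).hasDerivAt
    have a3 := (((hasDerivAt_id s).mul a2).sub a1).deriv
    refine Eq.trans ?_ (a3.trans ?_)
    · rfl
    · simp

theorem idb_lin {F f₁ f₂ f₃ f₄ : E n → ℝ} (h₁ : Integrable f₁) (h₂ : Integrable f₂)
    (h₃ : Integrable f₃) (h₄ : Integrable f₄) (c₁ c₂ c₃ c₄ : ℝ)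
    (hF : ∀ p, F p = c₁ * f₁ p + c₂ * f₂ p + c₃ * f₃ p + c₄ * f₄ p) :
    ∫ p, F p = (c₁ * ∫ p, f₁ p) + (c₂ * ∫ p, f₂ p) + (c₃ * ∫ p, f₃ p) + c₄ * ∫ p, f₄ p := by
  have a : Integrable fun p => c₁ * f₁ p + c₂ * f₂ p := (h₁.const_mul c₁).add (h₂.const_mul c₂)
  have a' : Integrable fun p => c₁ * f₁ p + c₂ * f₂ p + c₃ * f₃ p := a.add (h₃.const_mul c₃)
  rw [funext hF, integral_add a' (h₄.const_mul c₄), integral_add a (h₃.const_mul c₃),
    integral_add (h₁.const_mul c₁) (h₂.const_mul c₂), integral_const_mul, integral_const_mul,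
    integral_const_mul, integral_const_mul]

theorem id_main (h : Prof b ψ) (hW : ContDiff ℝ ∞ W) (v : E n) :
    I (kap n ψ) (D v (D v W)) = -I ψ (lap W) * ‖v‖ ^ 2 - er ψ W v / 2 := by
  obtain ⟨γ, hγ, g1, g2⟩ := idb_gam h
  have hU := smooth_D (smooth_D hW v) v
  have hM := idb_prof h ((n : ℝ) - 2)
  have A1 := idb_J h (smooth_eu (smooth_eu hW)) v
  have A2 := idb_J h (smooth_eu hW) v
  have B1 := idb_J hγ (smooth_lap hW) v
  rw [idb_eu h (smooth_eu hW), idb_eu hM hW, neg_neg] at A1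
  rw [idb_eu h hW] at A2
  rw [D_lap hW, D_lap (smooth_D hW v), I_lap hγ hU, I_eu hγ.deriv hU] at B1
  have j1 := idb_int h (smooth_eu (smooth_eu hW)) v
  have j2 := idb_int h (smooth_eu hW) v
  have j3 := idb_int hγ (smooth_lap hW) v
  have j4 := integrable_rad h (smooth_lap hW).continuous
  have e1 : er ψ W v = _ := idb_lin j1 j2 j3 j4 (-((n : ℝ) - 2)) ((n : ℝ) - 2) (-1)
    (-2 * ‖v‖ ^ 2) fun p => by
      simp only [mu, eu_eu hW, g1, g2, real_inner_self_eq_norm_sq]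
      ring
  have i1 := integrable_rad (idb_prof hM ((n : ℝ) - 2)) hU.continuous
  have i2 := integrable_rad hM hU.continuous
  have i3 := integrable_rad (idb_prof hγ.deriv (n : ℝ)) hU.continuous
  have e2 : I (kap n ψ) (D v (D v W)) = _ := idb_lin i1 i2 i3 i3 (((n : ℝ) - 2) / 2)
    (((n : ℝ) - 2) / 2) 1 0 fun p => by
      simp only [kap, idb_deriv h, g1, g2]
      ring
  rw [A1, A2, B1] at e1
  rw [e1, e2]
  unfold I
  ring

end Vale.Agent.P242
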