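import Vale.Agent.P242.Der
import Vale.Agent.P242.Est
import Vale.Agent.P242.IdB

/-! P242 Key (owner helper5; helper names start with key_). The Lyapunov inequality. With `y = Y eta`, `z = Y kap`, `W = sc w x r`:
`r * dLy (z,1) = -T φ z + 2 de/(n-1) + 2 (I eta (D z (D y W)) + ‖y‖^2 + T ψ y) + 2 (I kap (D z (D z W)) + ‖z‖^2 + T g z) ≥ de/(n-1) + ‖y‖^2 + ‖z‖^2` for small `th`, and `r * (left side) = ⟪y,z⟫ ‖v‖^2 - er/2`. -/

namespace Vale.Agent.P242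

open MeasureTheory Set Metric Filter Topology
open scoped ENNReal ContDiff RealInnerProductSpace

variable {n : ℕ}

theorem key_real {C m d t a b T0 T1 T2 H1 H2 : ℝ} (hC : 1 ≤ C) (hm : 0 < m)
    (ht0 : 0 ≤ t) (ha : 0 ≤ a) (hb : 0 ≤ b) (ht : t ≤ 1 / (15 * C ^ 2 * m + 6 * C))
    (h0 : |T0| ≤ C * (1 / (5 * C * m) * d + t * b / (1 / (5 * C * m))))
    (h1 : |T1| ≤ C * (1 / (5 * C * m) * d + t * a / (1 / (5 * C * m))))
    (h2 : |T2| ≤ C * (1 / (5 * C * m) * d + t * b / (1 / (5 * C * m))))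
    (h3 : |H1| ≤ C * t * (b + a)) (h4 : |H2| ≤ C * t * (b + b)) :
    d / m + a + b ≤ -T0 + 2 / m * d + 2 * (H1 + (a + T1)) + 2 * (H2 + (b + T2)) := by
  have hC0 : 0 < C := by linarith
  have e : ∀ s : ℝ, C * (1 / (5 * C * m) * d + t * s / (1 / (5 * C * m))) =
      d / m / 5 + 5 * (C ^ 2 * m * t) * s := by
    intro s; field_simp
  rw [e] at h0 h1 h2
  have ht' : 15 * (C ^ 2 * m * t) + 6 * (C * t) ≤ 1 := by
    rw [le_div_iff₀ (by positivity)] at ht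
    linarith
  have hp : 0 ≤ C ^ 2 * m * t := by positivity
  have hq : 0 ≤ C * t := by positivity
  have e2 : 2 / m * d = 2 * (d / m) := by ring
  rw [e2]
  generalize C ^ 2 * m * t = P at *
  generalize C * t = Q at *
  generalize d / m = δ at *
  have k0 := (abs_le.1 h0).2
  have k1 := (abs_le.1 h1).1
  have k2 := (abs_le.1 h2).1
  have k3 := (abs_le.1 h3).1
  have k4 := (abs_le.1 h4).1
  nlinarith [mul_nonneg hp ha, mul_nonneg hp hb, mul_nonneg hq ha, mul_nonneg hq hb,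
    mul_nonneg (sub_nonneg.2 ht') ha, mul_nonneg (sub_nonneg.2 ht') hb]

theorem key_sq {F : E n × ℝ → E n} (hF : ContDiff ℝ ∞ F) (q : E n × ℝ) :
    HasFDerivAt (fun q => ‖F q‖ ^ 2) (2 • (innerSL ℝ (F q)).comp (fderiv ℝ F q)) q :=
  ((hF.differentiable (by simp)) q).hasFDerivAt.norm_sq

theorem key_Ly (K : Kit n) {w : E n → ℝ} (hw : ContDiff ℝ ∞ w) (q h : E n × ℝ) :
    fderiv ℝ (Ly K w) q h = fderiv ℝ (M K.φ w) q h +
      2 * ⟪Y (eta K.ψ) w q, fderiv ℝ (Y (eta K.ψ) w) q h⟫ +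
      2 * ⟪Y (kap n K.ψ) w q, fderiv ℝ (Y (kap n K.ψ) w) q h⟫ := by
  have h0 := (((M_smooth K.hφ hw).differentiable (by simp)) q).hasFDerivAt
  have h1 := key_sq (Y_smooth K.hψ.eta hw) q
  have h2 := key_sq (Y_smooth (K.hψ.kap (n := n)) hw) q
  have h3 : HasFDerivAt (Ly K w) _ q := (h0.add h1).add h2
  rw [h3.fderiv]
  simp

theorem key_low (hn : 3 ≤ n) (K : Kit n) : ∃ θ : ℝ, 0 < θ ∧ ∀ w : E n → ℝ,
    ContDiff ℝ ∞ w → ∀ (x : E n) (r : ℝ), Pos (sc w x r) → th K (sc w x r) ≤ θ →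
      de K.φ (sc w x r) / ((n : ℝ) - 1) + ‖Y (eta K.ψ) w (x, r)‖ ^ 2 +
        ‖Y (kap n K.ψ) w (x, r)‖ ^ 2 ≤
      r * fderiv ℝ (Ly K w) (x, r) (Y (kap n K.ψ) w (x, r), 1) := by
  obtain ⟨C0, hC0, h0⟩ := est_T hn K (Or.inr rfl)
  obtain ⟨C1, hC1, h1⟩ := est_T hn K (Or.inl K.hψ)
  obtain ⟨C2, hC2, h2⟩ := est_T hn K (Or.inl K.hg)
  obtain ⟨C3, hC3, h3⟩ := est_H hn K K.hψ.eta
  obtain ⟨C4, hC4, h4⟩ := est_H hn K (K.hψ.kap (n := n))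
  have hm : (0 : ℝ) < (n : ℝ) - 1 := by
    have : (3 : ℝ) ≤ n := by exact_mod_cast hn
    linarith
  obtain ⟨C, hC⟩ : ∃ C, C = C0 + C1 + C2 + C3 + C4 := ⟨_, rfl⟩
  have hC' : 1 ≤ C := by linarith
  refine ⟨1 / (15 * C ^ 2 * ((n : ℝ) - 1) + 6 * C), by positivity, fun w hw x r hP ht => ?_⟩
  obtain ⟨hd, -, ht0, -⟩ := est_sign hn K hP
  have hl : 0 < 1 / (5 * C * ((n : ℝ) - 1)) := by positivity
  obtain ⟨y, hy⟩ : ∃ y, y = Y (eta K.ψ) w (x, r) := ⟨_, rfl⟩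
  obtain ⟨z, hz⟩ : ∃ z, z = Y (kap n K.ψ) w (x, r) := ⟨_, rfl⟩
  have e0 := der_M hn K.hφ hw x z r 1
  have e1 := der_Y (k := eta K.ψ) K.hψ (fun _ => rfl) hw x y z r 1
  have e2 := der_Y K.hg K.dg hw x z z r 1
  rw [← (Y_inner K.hψ.eta hw x y r).2, ← hy, real_inner_self_eq_norm_sq] at e1
  rw [← (Y_inner (K.hψ.kap (n := n)) hw x z r).2, ← hz, real_inner_self_eq_norm_sq] at e2
  rw [key_Ly K hw, ← hy, ← hz]
  have k := key_real hC' hm ht0 (sq_nonneg ‖y‖) (sq_nonneg ‖z‖) ht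
    ((h0 _ hP z _ hl).trans (mul_le_mul_of_nonneg_right (by linarith) (by positivity)))
    ((h1 _ hP y _ hl).trans (mul_le_mul_of_nonneg_right (by linarith) (by positivity)))
    ((h2 _ hP z _ hl).trans (mul_le_mul_of_nonneg_right (by linarith) (by positivity)))
    ((h3 _ hP z y).trans (mul_le_mul_of_nonneg_right
      (mul_le_mul_of_nonneg_right (by linarith) ht0) (by positivity)))
    ((h4 _ hP z z).trans (mul_le_mul_of_nonneg_right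
      (mul_le_mul_of_nonneg_right (by linarith) ht0) (by positivity)))
  linarith

theorem key (hn : 3 ≤ n) (K : Kit n) : ∃ θ C : ℝ, 0 < θ ∧ 0 < C ∧ ∀ w : E n → ℝ,
    ContDiff ℝ ∞ w → ∀ (x : E n) (r : ℝ), 0 < r → Pos (sc w x r) → th K (sc w x r) ≤ θ → ∀ v : E n,
      |fderiv ℝ (av (eta K.ψ) w) (x, r) (Y (kap n K.ψ) w (x, r), 1) * ‖v‖ ^ 2 +
        ⟪v, fderiv ℝ (Y (kap n K.ψ) w) (x, r) (v, 0)⟫| ≤
      C * fderiv ℝ (Ly K w) (x, r) (Y (kap n K.ψ) w (x, r), 1) * ‖v‖ ^ 2 := by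
  obtain ⟨θ, hθ, h⟩ := key_low hn K
  obtain ⟨C, hC, he⟩ := est_er hn K
  have hm : (2 : ℝ) ≤ (n : ℝ) - 1 := by
    have : (3 : ℝ) ≤ n := by exact_mod_cast hn
    linarith
  refine ⟨θ, C * ((n : ℝ) - 1), hθ, by positivity, fun w hw x r hr hP ht v => ?_⟩
  have k := h w hw x r hP ht
  obtain ⟨hd, -⟩ := est_sign hn K hP
  obtain ⟨y, hy⟩ : ∃ y, y = Y (eta K.ψ) w (x, r) := ⟨_, rfl⟩
  obtain ⟨z, hz⟩ : ∃ z, z = Y (kap n K.ψ) w (x, r) := ⟨_, rfl⟩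
  have e0 := der_a K.hψ hw x z r 1
  have e1 := der_Y K.hg K.dg hw x v v r 0
  rw [← (Y_inner K.hψ.eta hw x z r).2, ← hy] at e0
  rw [id_main K.hψ hP.1] at e1
  rw [← hy, ← hz] at k
  rw [← hz]
  have h1 := he _ hP v
  have h2 : |⟪z, y⟫| ≤ ‖y‖ ^ 2 + ‖z‖ ^ 2 :=
    (abs_real_inner_le_norm z y).trans
      (by nlinarith [sq_nonneg (‖y‖ - ‖z‖), norm_nonneg y, norm_nonneg z])
  generalize fderiv ℝ (av (eta K.ψ) w) (x, r) (z, 1) = A at *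
  generalize ⟪v, fderiv ℝ (Y (kap n K.ψ) w) (x, r) (v, 0)⟫ = B at *
  generalize fderiv ℝ (Ly K w) (x, r) (z, 1) = L at *
  have e : r * (A * ‖v‖ ^ 2 + B) = ⟪z, y⟫ * ‖v‖ ^ 2 - er K.ψ (sc w x r) v / 2 := by
    linear_combination ‖v‖ ^ 2 * e0 + e1
  have hv := sq_nonneg ‖v‖
  have hs : 0 ≤ ‖y‖ ^ 2 + ‖z‖ ^ 2 := by positivity
  have hCm : 1 ≤ C * ((n : ℝ) - 1) := by nlinarith
  refine le_of_mul_le_mul_left ?_ hr
  calc r * |A * ‖v‖ ^ 2 + B| = |r * (A * ‖v‖ ^ 2 + B)| := by rw [abs_mul, abs_of_pos hr]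
    _ ≤ |⟪z, y⟫| * ‖v‖ ^ 2 + |er K.ψ (sc w x r) v| / 2 := by
      rw [e]
      refine (abs_sub _ _).trans (le_of_eq ?_)
      rw [abs_mul, abs_of_nonneg hv, abs_div, abs_two]
    _ ≤ C * ((n : ℝ) - 1) * (‖y‖ ^ 2 + ‖z‖ ^ 2) * ‖v‖ ^ 2 + C * de K.φ (sc w x r) * ‖v‖ ^ 2 := by
      have h3 : |⟪z, y⟫| ≤ C * ((n : ℝ) - 1) * (‖y‖ ^ 2 + ‖z‖ ^ 2) := by nlinarith
      have h4 := mul_le_mul_of_nonneg_right h3 hv
      have h5 := abs_nonneg (er K.ψ (sc w x r) v)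
      linarith
    _ = C * ((n : ℝ) - 1) * (de K.φ (sc w x r) / ((n : ℝ) - 1) + ‖y‖ ^ 2 + ‖z‖ ^ 2) *
        ‖v‖ ^ 2 := by
      have : (n : ℝ) - 1 ≠ 0 := by linarith
      field_simp
      ring
    _ ≤ C * ((n : ℝ) - 1) * (r * L) * ‖v‖ ^ 2 :=
      mul_le_mul_of_nonneg_right (mul_le_mul_of_nonneg_left k (by linarith)) hv
    _ = r * (C * ((n : ℝ) - 1) * L * ‖v‖ ^ 2) := by ring

end Vale.Agent.P242
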