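import Vale.Agent.P242.Defs

/-! P242 Lim (TASK, owner helper5; helper names start with lim_). Gromov-Hausdorff limits. Let `G k` be the charts, `σ = min ρ (s / (2 L))`, `𝒰 = hyperfilter ℕ` (or `Ultrafilter.of atTop`). For `v ∈ ball 0 σ` the points `f k (G k v)` lie in a closed ball about `p` eventually (compact), let `H v` be the ultralimit (`IsCompact.ultrafilter_le_nhds`). Then `H 0 = p`, `‖a - b‖ / L ≤ dist (H a) (H b) ≤ L ‖a - b‖`.
For `q ∈ U = ball p τ`, `τ = min (σ / (4 L)) (s / 2)`: eventually there is `x k` with `dist (f k (x k)) q ≤ δ k`, so `cdist 0 (x k) < σ / (2 L)`, `x k = G k (v k)` with `‖v k‖ ≤ σ / 2`; the ultralimit `v` has `H v = q`. Take `V = ball 0 σ ∩ H ⁻¹ U` (open by continuity on the ball), `F = Function.invFunOn H (ball 0 σ)`. -/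

namespace Vale.Agent.P242

open MeasureTheory Set Metric Filter Topology
open scoped ENNReal ContDiff RealInnerProductSpace

variable {n : ℕ}

lemma lim_ult {Y : Type*} [MetricSpace Y] [ProperSpace Y] (U : Ultrafilter ℕ) (y : ℕ → Y) (c : Y)
    (r : ℝ) (h : ∀ᶠ k in (U : Filter ℕ), dist (y k) c ≤ r) :
    ∃ z, dist z c ≤ r ∧ Tendsto y (U : Filter ℕ) (𝓝 z) := by
  have h1 : ((U.map y : Ultrafilter Y) : Filter Y) ≤ 𝓟 (closedBall c r) := by
    rw [Ultrafilter.coe_map, le_principal_iff, mem_map]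
    exact h
  obtain ⟨z, hz, hz'⟩ := (isCompact_closedBall c r).ultrafilter_le_nhds (U.map y) h1
  exact ⟨z, hz, hz'⟩

lemma lim_final {X : Type} [MetricSpace X] {p : X} {L σ τ : ℝ} (hL : 0 < L) (hσ : 0 < σ)
    (hτ : 0 < τ) (H : E n → X)
    (hb : ∀ a ∈ ball (0 : E n) σ, ∀ b ∈ ball (0 : E n) σ,
      ‖a - b‖ / L ≤ dist (H a) (H b) ∧ dist (H a) (H b) ≤ L * ‖a - b‖)
    (hs : ∀ q ∈ ball p τ, ∃ v ∈ ball (0 : E n) σ, H v = q) : HasChart n p := by
  have hne : Nonempty (E n) := ⟨0⟩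
  have hinj : InjOn H (ball 0 σ) := by
    intro a ha b hb' hab
    have h1 := (hb a ha b hb').1
    rw [hab, dist_self, div_le_iff₀ hL, zero_mul] at h1
    exact sub_eq_zero.1 (norm_le_zero_iff.1 h1)
  have hcont : ContinuousOn H (ball 0 σ) := by
    have : LipschitzOnWith ⟨L, hL.le⟩ H (ball 0 σ) :=
      LipschitzOnWith.of_dist_le_mul fun a ha b hb' => by
        rw [dist_eq_norm a b]
        exact (hb a ha b hb').2
    exact this.continuousOn
  have hm : ∀ x ∈ ball p τ, Function.invFunOn H (ball 0 σ) x ∈ ball (0 : E n) σ :=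
    fun x hx => Function.invFunOn_mem (hs x hx)
  have he : ∀ x ∈ ball p τ, H (Function.invFunOn H (ball 0 σ) x) = x :=
    fun x hx => Function.invFunOn_eq (hs x hx)
  refine ⟨ball p τ, ball 0 σ ∩ H ⁻¹' ball p τ, Function.invFunOn H (ball 0 σ), L, isOpen_ball,
    mem_ball_self hτ, hcont.isOpen_inter_preimage isOpen_ball isOpen_ball, ⟨?_, ?_, ?_⟩, hL, ?_⟩
  · intro x hx
    refine ⟨hm x hx, ?_⟩
    rw [mem_preimage, he x hx]
    exact hx
  · intro x hx z hz hxz
    rw [← he x hx, ← he z hz, hxz]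
  · intro v hv
    exact ⟨H v, hv.2, hinj.leftInvOn_invFunOn hv.1⟩
  · intro x hx z hz
    have h1 := hb _ (hm x hx) _ (hm z hz)
    rw [he x hx, he z hz] at h1
    refine ⟨?_, ?_⟩
    · rw [div_le_iff₀ hL, mul_comm]
      exact h1.2
    · have h2 := h1.1
      rw [div_le_iff₀ hL, mul_comm] at h2
      exact h2

lemma lim_real {c : ℝ≥0∞} {a b : ℝ} (ha : 0 ≤ a) (hb : 0 ≤ b) (h1 : ENNReal.ofReal a ≤ c)
    (h2 : c ≤ ENNReal.ofReal b) : a ≤ c.toReal ∧ c.toReal ≤ b := by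
  have hc : c ≠ ⊤ := ne_top_of_le_ne_top ENNReal.ofReal_ne_top h2
  exact ⟨(ENNReal.ofReal_le_iff_le_toReal hc).1 h1, ENNReal.toReal_le_of_le_ofReal hb h2⟩

theorem lim_chart {L ρ s : ℝ} (hL : 1 ≤ L) (hρ : 0 < ρ) (hs : 0 < s) {X : Type} [MetricSpace X]
    [ProperSpace X] {p : X} {w : ℕ → E n → ℝ} {f : ℕ → E n → X} {δ : ℕ → ℝ}
    (hc : ∀ k, Chart (w k) L ρ) (hδ : Tendsto δ atTop (𝓝 0))
    (ha : ∀ k, Approx (w k) (f k) p s (δ k)) : HasChart n p := by
  have hL0 : 0 < L := lt_of_lt_of_le one_pos hL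
  choose G hG0 hGm hGb hGs using hc
  obtain ⟨σ, hσ, hσρ, hσs⟩ : ∃ σ : ℝ, 0 < σ ∧ σ ≤ ρ ∧ L * σ ≤ s / 2 := by
    refine ⟨min ρ (s / (2 * L)), lt_min hρ (by positivity), min_le_left _ _, ?_⟩
    have h1 : min ρ (s / (2 * L)) ≤ s / (2 * L) := min_le_right _ _
    calc L * min ρ (s / (2 * L)) ≤ L * (s / (2 * L)) := mul_le_mul_of_nonneg_left h1 hL0.le
      _ = s / 2 := by field_simp
  have hsub : ball (0 : E n) σ ⊆ ball 0 ρ := ball_subset_ball hσρ
  have h0 : (0 : E n) ∈ ball (0 : E n) σ := mem_ball_self hσ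
  have hcs : ∀ k, ∀ v ∈ ball (0 : E n) σ, cdist (w k) 0 (G k v) < ENNReal.ofReal s := by
    intro k v hv
    have h1 := (hGb k 0 (hsub h0) v (hsub hv)).2
    rw [hG0 k, zero_sub, norm_neg] at h1
    refine h1.trans_lt ((ENNReal.ofReal_lt_ofReal_iff hs).2 ?_)
    have h2 : ‖v‖ < σ := mem_ball_zero_iff.1 hv
    have h3 := mul_lt_mul_of_pos_left h2 hL0
    linarith
  have hd : ∀ k, ∀ a ∈ ball (0 : E n) σ, ∀ b ∈ ball (0 : E n) σ,
      ‖a - b‖ / L - δ k ≤ dist (f k (G k a)) (f k (G k b)) ∧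
        dist (f k (G k a)) (f k (G k b)) ≤ L * ‖a - b‖ + δ k := by
    intro k a ha' b hb'
    have h1 := (ha k).2.1 _ (hGm k (hsub ha')) _ (hGm k (hsub hb')) (hcs k a ha') (hcs k b hb')
    have h2 := hGb k a (hsub ha') b (hsub hb')
    have h3 := lim_real (by positivity) (by positivity) h2.1 h2.2
    rw [abs_le] at h1
    constructor <;> linarith [h1.1, h1.2, h3.1, h3.2]
  have hp : ∀ k, f k (G k 0) = p := fun k => by rw [hG0 k, (ha k).1]
  let U : Ultrafilter ℕ := Ultrafilter.of atTop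
  have hU : (U : Filter ℕ) ≤ atTop := Ultrafilter.of_le _
  have hδU : Tendsto δ (U : Filter ℕ) (𝓝 0) := hδ.mono_left hU
  have hev : ∀ ε : ℝ, 0 < ε → ∀ᶠ k in (U : Filter ℕ), δ k < ε :=
    fun ε hε => hδU.eventually (gt_mem_nhds hε)
  have hex : ∀ v : E n, ∃ z : X, v ∈ ball (0 : E n) σ →
      Tendsto (fun k => f k (G k v)) (U : Filter ℕ) (𝓝 z) := by
    intro v
    by_cases hv : v ∈ ball (0 : E n) σ
    · obtain ⟨z, -, hz⟩ := lim_ult U (fun k => f k (G k v)) p (L * ‖v - 0‖ + 1) (by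
        filter_upwards [hev 1 one_pos] with k hk
        have h1 := (hd k v hv 0 h0).2
        rw [hp k] at h1
        linarith)
      exact ⟨z, fun _ => hz⟩
    · exact ⟨p, fun h => absurd h hv⟩
  choose H hH using hex
  refine lim_final (τ := min (σ / (4 * L)) (s / 2)) hL0 hσ (lt_min (by positivity) (by positivity))
    H ?_ ?_
  · intro a ha' b hb'
    have h1 := (hH a ha').dist (hH b hb')
    constructor
    · have h2 : Tendsto (fun k => ‖a - b‖ / L - δ k) (U : Filter ℕ) (𝓝 (‖a - b‖ / L - 0)) :=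
        tendsto_const_nhds.sub hδU
      rw [sub_zero] at h2
      exact le_of_tendsto_of_tendsto' h2 h1 fun k => (hd k a ha' b hb').1
    · have h2 : Tendsto (fun k => L * ‖a - b‖ + δ k) (U : Filter ℕ) (𝓝 (L * ‖a - b‖ + 0)) :=
        tendsto_const_nhds.add hδU
      rw [add_zero] at h2
      exact le_of_tendsto_of_tendsto' h1 h2 fun k => (hd k a ha' b hb').2
  · intro q hq
    have hq1 : dist q p < σ / (4 * L) := (mem_ball.1 hq).trans_le (min_le_left _ _)
    have hq2 : dist q p < s / 2 := (mem_ball.1 hq).trans_le (min_le_right _ _)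
    have h1 : ∀ᶠ k in (U : Filter ℕ), ∃ v : E n, dist v 0 ≤ σ / 2 ∧
        dist (f k (G k v)) q ≤ δ k := by
      filter_upwards [hev (s / 2) (by positivity), hev (σ / (8 * L)) (by positivity)] with k k1 k2
      obtain ⟨x, hx, hx1, hx2⟩ := (ha k).2.2 q (mem_ball.2 (by linarith))
      have h00 := hcs k 0 h0
      rw [hG0 k] at h00
      have h2 := (ha k).2.1 0 (mem_ball_self (by norm_num)) x hx h00 hx1
      rw [(ha k).1, abs_le] at h2
      have h3 : dist p (f k x) ≤ dist q p + dist (f k x) q := by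
        rw [dist_comm p, add_comm]
        exact dist_triangle _ _ _
      have e1 : σ / (4 * L) + 2 * (σ / (8 * L)) = σ / 2 / L := by field_simp; ring
      have h4 : (cdist (w k) 0 x).toReal < σ / 2 / L := by linarith [h2.1]
      have hne : cdist (w k) 0 x ≠ ⊤ := ne_top_of_lt hx1
      have h5 : σ / 2 / L ≤ ρ / L := div_le_div_of_nonneg_right (by linarith) hL0.le
      have h6 : cdist (w k) 0 x < ENNReal.ofReal (ρ / L) := by
        rw [ENNReal.lt_ofReal_iff_toReal_lt hne]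
        linarith
      obtain ⟨v, hv, rfl⟩ := hGs k x hx h6
      refine ⟨v, ?_, hx2⟩
      have h7 := (hGb k 0 (hsub h0) v hv).1
      rw [hG0 k, zero_sub, norm_neg, ENNReal.ofReal_le_iff_le_toReal hne] at h7
      have h8 : ‖v‖ / L < σ / 2 / L := h7.trans_lt h4
      rw [div_lt_div_iff_of_pos_right hL0] at h8
      rw [dist_zero_right]
      exact h8.le
    obtain ⟨u, hu⟩ := h1.choice
    obtain ⟨v, hv, hv'⟩ := lim_ult U u 0 (σ / 2) (hu.mono fun k hk => hk.1)
    have hvb : v ∈ ball (0 : E n) σ := mem_ball.2 (by linarith)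
    refine ⟨v, hvb, ?_⟩
    have h2 : Tendsto (fun k => dist (f k (G k v)) q) (U : Filter ℕ) (𝓝 (dist (H v) q)) :=
      (hH v hvb).dist tendsto_const_nhds
    have h3 : Tendsto (fun k => L * ‖v - u k‖ + δ k + δ k) (U : Filter ℕ)
        (𝓝 (L * ‖v - v‖ + 0 + 0)) :=
      ((tendsto_const_nhds.mul (tendsto_const_nhds.sub hv').norm).add hδU).add hδU
    rw [sub_self, norm_zero, mul_zero, add_zero, add_zero] at h3
    refine dist_le_zero.1 (le_of_tendsto_of_tendsto h2 h3 ?_)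
    filter_upwards [hu] with k hk
    have h4 := (hd k v hvb (u k) (mem_ball.2 (by linarith [hk.1]))).2
    have h5 := dist_triangle (f k (G k v)) (f k (G k (u k))) q
    linarith [hk.2]

end Vale.Agent.P242
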