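import Vale.Agent.P242.MetA

/-! P242 Met (TASK, owner helper5; helper names start with met_). The chart `a ↦ G (Φ 0 + a)` on `ball 0 (1/10)`. Upper bound: the curve `t ↦ G (Φ 0 + a + t • (b - a))` is Lipschitz on `Icc 0 1` (`exp w` is bounded below on the compact ball, `LocallyLipschitzOn.exists_lipschitzOnWith_of_compact`) and `exp (w (γ t)) * ‖deriv γ t‖ ≤ A ‖a - b‖` for `t ∈ Icc 0 1` (`norm_deriv_le_of_lip` type lemma, `lo` at the point `γ t`; the argument stays in `ball 0 (4/5)` for `s` near `t`). Lower bound and surjectivity: `curve` (`le_iInf₂`, `iInf_lt_iff`), `inv`. -/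

namespace Vale.Agent.P242

open MeasureTheory Set Metric Filter Topology
open scoped ENNReal ContDiff RealInnerProductSpace

variable {n : ℕ}

variable {w : E n → ℝ} {A η : ℝ} {Φ G : E n → E n}

theorem met_up (h : FlowD w A η Φ G) (hw : Continuous w) (hA : 0 ≤ A) (hη : 0 < η) {a b : E n}
    (ha : a ∈ ball (0 : E n) (1 / 5)) (hb : b ∈ ball (0 : E n) (1 / 5)) :
    cdist w (G a) (G b) ≤ ENNReal.ofReal (A * ‖a - b‖) := by
  obtain ⟨c, hc⟩ : ∃ c : ℝ → E n, c = fun t => a + t • (b - a) := ⟨_, rfl⟩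
  have c1 : ∀ t ∈ Icc (0 : ℝ) 1, c t ∈ ball (0 : E n) (1 / 5) := fun t ht =>
    hc ▸ (convex_ball _ _).add_smul_sub_mem ha hb ht
  have c2 : ∀ t ∈ Icc (0 : ℝ) 1, c t ∈ ball (0 : E n) (4 / 5) := fun t ht =>
    ball_subset_ball (by norm_num) (c1 t ht)
  have c3 : ∀ s t, ‖c s - c t‖ = ‖s - t‖ * ‖a - b‖ := fun s t => by
    rw [hc, norm_sub_rev a, ← norm_smul, add_sub_add_left_eq_sub, sub_smul]
  have c4 : Continuous c := by
    rw [hc]
    fun_prop
  have c5 : ∀ t ∈ Icc (0 : ℝ) 1, ‖G (c t)‖ ≤ 1 := fun t ht => by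
    have h1 := (h.mv _ (c2 t ht)).2
    have h2 := mem_ball_zero_iff.1 (c1 t ht)
    linarith [norm_le_insert' (G (c t)) (c t)]
  have hab : ‖a - b‖ ≤ 1 := by
    linarith [norm_sub_le a b, mem_ball_zero_iff.1 ha, mem_ball_zero_iff.1 hb]
  obtain ⟨M, hM⟩ := (isCompact_closedBall (0 : E n) 1).exists_bound_of_continuousOn hw.continuousOn
  have hL : LocallyLipschitzOn (Icc 0 1) fun t => G (c t) := by
    intro t _
    refine ⟨Real.toNNReal (A * Real.exp M), Icc 0 1 ∩ closedBall t (η / 2),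
      inter_mem_nhdsWithin _ (closedBall_mem_nhds t (half_pos hη)),
      LipschitzOnWith.of_dist_le' fun x hx y hy => ?_⟩
    have h1 : ‖x - y‖ ≤ η := by
      rw [← dist_eq_norm]
      linarith [dist_triangle_right x y t, mem_closedBall.1 hx.2, mem_closedBall.1 hy.2]
    have h2 : ‖c x - c y‖ ≤ ‖x - y‖ := by
      rw [c3]
      exact mul_le_of_le_one_right (norm_nonneg _) hab
    have h3 := h.lo _ (c2 x hx.1) _ (c2 y hy.1) (h2.trans h1)
    have h4 : 1 ≤ Real.exp M * Real.exp (w (G (c x))) := by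
      rw [← Real.exp_add]
      exact Real.one_le_exp (by
        linarith [(abs_le.1 (hM _ (mem_closedBall_zero_iff.2 (c5 x hx.1)))).1])
    rw [dist_eq_norm, dist_eq_norm]
    calc ‖G (c x) - G (c y)‖ ≤ Real.exp M * Real.exp (w (G (c x))) * ‖G (c x) - G (c y)‖ :=
          le_mul_of_one_le_left (norm_nonneg _) h4
      _ ≤ Real.exp M * (A * ‖x - y‖) := by
          rw [mul_assoc]
          exact mul_le_mul_of_nonneg_left (h3.trans (mul_le_mul_of_nonneg_left h2 hA))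
            (Real.exp_pos M).le
      _ = _ := by ring
  refine iInf₂_le_of_le (fun t => G (c t)) ⟨hL.exists_lipschitzOnWith_of_compact isCompact_Icc,
    fun t ht => mem_ball_zero_iff.2 ((c5 t ht).trans_lt (by norm_num)), by simp [hc],
    by simp [hc]⟩ ?_
  refine (setLIntegral_mono' measurableSet_Icc (g := fun _ => ENNReal.ofReal (A * ‖a - b‖))
    fun t ht => ENNReal.ofReal_le_ofReal ?_).trans (by simp)
  rw [← le_div_iff₀' (Real.exp_pos _)]
  refine norm_deriv_le_of_lip' (by positivity) ?_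
  filter_upwards [c4.continuousAt.eventually (isOpen_ball.mem_nhds (c2 t ht)),
    c4.continuousAt.eventually (closedBall_mem_nhds (c t) hη)] with s h1 h2
  have h3 := h.lo _ (c2 t ht) _ h1 (mem_closedBall_iff_norm'.1 h2)
  rw [c3, norm_sub_rev t] at h3
  rw [div_mul_eq_mul_div, le_div_iff₀' (Real.exp_pos _), norm_sub_rev]
  linarith

theorem FlowD.chart (h : FlowD w A η Φ G) (hw : Continuous w) (hA : 1 ≤ A) (hη : 0 < η) :
    Chart w A (1 / 10) := by
  have hA0 : 0 < A := by linarith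
  have hp : ‖Φ 0‖ ≤ 1 / 10 := by simpa using (h.mv 0 (mem_ball_self (by norm_num))).1
  have b1 : ∀ a ∈ ball (0 : E n) (1 / 10), Φ 0 + a ∈ ball (0 : E n) (1 / 5) := fun a ha => by
    rw [mem_ball_zero_iff] at ha ⊢
    linarith [norm_add_le (Φ 0) a]
  have b2 : ∀ a ∈ ball (0 : E n) (1 / 10), ‖G (Φ 0 + a)‖ ≤ 3 / 10 := fun a ha => by
    have h1 := (h.mv _ (ball_subset_ball (by norm_num) (b1 a ha))).2
    have h2 := mem_ball_zero_iff.1 (b1 a ha)
    linarith [norm_le_insert' (G (Φ 0 + a)) (Φ 0 + a)]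
  have b3 : ∀ a ∈ ball (0 : E n) (1 / 10), Φ (G (Φ 0 + a)) = Φ 0 + a := fun a ha =>
    (h.inv _ (ball_subset_ball (by norm_num) (b1 a ha))).2
  refine ⟨fun a => G (Φ 0 + a), ?_, fun a ha => mem_ball_zero_iff.2 ((b2 a ha).trans_lt
    (by norm_num)), fun a ha b hb => ⟨le_iInf₂ fun γ ⟨⟨K, hK⟩, _, h0, h1⟩ => ?_, ?_⟩,
    fun x _ hx => ?_⟩
  · simpa using (h.inv 0 (mem_ball_self (by norm_num))).1
  · rw [ENNReal.ofReal_div_of_pos hA0]
    refine ENNReal.div_le_of_le_mul' ?_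
    rcases h.curve hw hA0.le hη hK (h0 ▸ b2 a ha)
      (by rw [h0, b3 a ha]; exact (mem_ball_zero_iff.1 (b1 a ha)).le) with h2 | ⟨-, h2⟩
    · refine (ENNReal.ofReal_le_ofReal ?_).trans h2
      linarith [norm_sub_le a b, mem_ball_zero_iff.1 ha, mem_ball_zero_iff.1 hb]
    · rwa [h0, h1, b3 a ha, b3 b hb, add_sub_add_left_eq_sub, norm_sub_rev] at h2
  · have h1 := met_up h hw hA0.le hη (b1 a ha) (b1 b hb)
    rwa [add_sub_add_left_eq_sub] at h1
  · obtain ⟨γ, hγ⟩ := iInf_lt_iff.1 hx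
    obtain ⟨⟨⟨K, hK⟩, -, h0, h1⟩, h2⟩ := iInf_lt_iff.1 hγ
    rw [ENNReal.ofReal_div_of_pos hA0] at h2
    have h3 := ENNReal.mul_lt_of_lt_div' h2
    rcases h.curve hw hA0.le hη hK (by rw [h0, norm_zero]; norm_num)
      (by rw [h0]; linarith) with h4 | ⟨h4, h5⟩
    · have h5 := (ENNReal.ofReal_lt_ofReal_iff (by norm_num)).1 (h4.trans_lt h3)
      norm_num at h5
    · rw [h1] at h4
      rw [h0, h1] at h5
      refine ⟨Φ x - Φ 0, mem_ball_zero_iff.2
        ((ENNReal.ofReal_lt_ofReal_iff (by norm_num)).1 (h5.trans_lt h3)), ?_⟩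
      simpa using (h.inv x (mem_ball_zero_iff.2 h4)).1

end Vale.Agent.P242
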