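import Vale.Agent.P242.Calc

/-! P242 Ricci (TASK, owner helper5; helper names start with ric_). Conformal change. `(cm w x)⁻¹ = exp (-2 w x) • 1` (`Matrix.inv_eq_left_inv`), `pd i (fun z => cm w z j l) x = 2 exp (2 w x) pd i w x * δ j l`, so `chr (cm w) k i j = δ k i * pd j w + δ k j * pd i w - δ i j * pd k w` as functions.
Then `ric i j = -(n-2) (pd i (pd j w) - pd i w pd j w) - (lap w + (n-2) ∑ (pd l w)^2) δ i j` (`D_comm`, `Finset.sum_ite_eq`). Hence `mu w x v v = Ric (v,v) + (n-2) (‖grad‖^2 ‖v‖^2 - (D v w x)^2) ≥ 0` by Cauchy-Schwarz (`Finset.sum_mul_sq_le_sq_mul_sq`, `D_eq_sum`, `EuclideanSpace.norm_sq_eq` or `real_norm_sq_eq`). -/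

namespace Vale.Agent.P242

open MeasureTheory Set Metric Filter Topology
open scoped ENNReal ContDiff RealInnerProductSpace

variable {n : ℕ}

/-- Kronecker symbol. -/
noncomputable def ric_d (i j : Fin n) : ℝ := if i = j then 1 else 0

theorem ric_d_self (i : Fin n) : ric_d i i = 1 := if_pos rfl

theorem ric_d_comm (i j : Fin n) : ric_d i j = ric_d j i := by
  simp only [ric_d, eq_comm]

theorem ric_sum (i : Fin n) (f : Fin n → ℝ) : ∑ l, ric_d i l * f l = f i := by
  simp only [ric_d, ite_mul, one_mul, zero_mul, Finset.sum_ite_eq, Finset.mem_univ, if_true]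

theorem ric_sum' (i : Fin n) (f : Fin n → ℝ) : ∑ l, ric_d l i * f l = f i := by
  simp only [ric_d, ite_mul, one_mul, zero_mul, Finset.sum_ite_eq', Finset.mem_univ, if_true]

/-- The symbols of a conformal metric. -/
noncomputable def ric_G (a : Fin n → ℝ) (k i j : Fin n) : ℝ :=
  ric_d k i * a j + ric_d k j * a i - ric_d i j * a k

theorem ric_q1 (a : Fin n → ℝ) (k i j : Fin n) :
    ∑ l, ric_G a k k l * ric_G a l i j = 2 * a i * a j - ric_d i j * ∑ l, a l ^ 2 := by
  have e : ∀ l, ric_G a k k l * ric_G a l i j =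
      ric_d l i * (a l * a j) + ric_d l j * (a l * a i) - ric_d i j * a l ^ 2 := fun l => by
    simp only [ric_G, ric_d_self]
    ring
  simp only [e, Finset.sum_sub_distrib, Finset.sum_add_distrib, ric_sum', ← Finset.mul_sum]
  ring

theorem ric_q2 (a : Fin n → ℝ) (k i j : Fin n) :
    ∑ l, ric_G a k j l * ric_G a l i k = ric_d k j * (2 * a k * a i - ric_d i k * ∑ l, a l ^ 2) +
      a j * a i - ric_d i j * a k ^ 2 - ric_d k j * (a k * a i) + ric_d k i * (a k * a j) := by
  have e : ∀ l, ric_G a k j l * ric_G a l i k =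
      ric_d l i * (ric_d k j * a l * a k) + ric_d l k * (ric_d k j * a l * a i) -
        ric_d k j * ric_d i k * a l ^ 2 + ric_d k l * (a j * ric_G a l i k) -
          ric_d j l * (a k * ric_G a l i k) := fun l => by
    simp only [ric_G]
    ring
  simp only [e, Finset.sum_sub_distrib, Finset.sum_add_distrib, ric_sum, ric_sum',
    ← Finset.mul_sum]
  simp only [ric_G, ric_d_self, ric_d_comm i k, ric_d_comm j k, ric_d_comm j i]
  ring

theorem ric_alg (a : Fin n → ℝ) (H : Fin n → Fin n → ℝ) (hH : ∀ i j, H i j = H j i)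
    (i j : Fin n) :
    ∑ k, (ric_G (H k) k i j - ric_G (H j) k i k +
      ∑ l, (ric_G a k k l * ric_G a l i j - ric_G a k j l * ric_G a l i k)) =
      -((n : ℝ) - 2) * (H i j - a i * a j) -
        ric_d i j * (∑ k, H k k + ((n : ℝ) - 2) * ∑ l, a l ^ 2) := by
  have e : ∀ k, ric_G (H k) k i j - ric_G (H j) k i k +
      ∑ l, (ric_G a k k l * ric_G a l i j - ric_G a k j l * ric_G a l i k) =
      ric_d k i * (H k j - a k * a j) +
        ric_d k j * (H k i - a k * a i + ric_d i k * ∑ l, a l ^ 2) +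
        ric_d i j * (a k ^ 2 - H k k) + (a i * a j - H j i - ric_d i j * ∑ l, a l ^ 2) := fun k => by
    rw [Finset.sum_sub_distrib, ric_q1, ric_q2]
    simp only [ric_G, ric_d_self, ric_d_comm i k]
    ring
  simp only [e, Finset.sum_add_distrib, ric_sum', ← Finset.mul_sum, Finset.sum_const,
    Finset.card_univ, Fintype.card_fin, nsmul_eq_mul]
  rw [Finset.sum_sub_distrib, hH j i]
  ring

theorem ric_cm (w : E n → ℝ) (x : E n) (i j : Fin n) :
    cm w x i j = Real.exp (2 * w x) * ric_d i j := by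
  simp only [cm, ric_d, Matrix.smul_apply, Matrix.one_apply, smul_eq_mul]

theorem ric_inv (w : E n → ℝ) (x : E n) (i j : Fin n) :
    (cm w x)⁻¹ i j = (Real.exp (2 * w x))⁻¹ * ric_d i j := by
  have h : (cm w x)⁻¹ = (Real.exp (2 * w x))⁻¹ • (1 : Matrix (Fin n) (Fin n) ℝ) := by
    refine Matrix.inv_eq_left_inv ?_
    rw [cm, Matrix.smul_mul, Matrix.one_mul, smul_smul, inv_mul_cancel₀ (Real.exp_ne_zero _),
      one_smul]
  rw [h]
  simp only [ric_d, Matrix.smul_apply, Matrix.one_apply, smul_eq_mul]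

theorem ric_pd {w : E n → ℝ} (hw : ContDiff ℝ ∞ w) (x : E n) (i j l : Fin n) :
    pd i (fun z => cm w z j l) x = 2 * Real.exp (2 * w x) * pd i w x * ric_d j l := by
  have h := (((hw.differentiable (by simp) x).hasFDerivAt.const_mul 2).exp).mul_const (ric_d j l)
  simp only [ric_cm, pd]
  rw [h.fderiv]
  simp only [smul_apply, smul_eq_mul]
  ring

theorem ric_chr {w : E n → ℝ} (hw : ContDiff ℝ ∞ w) (k i j : Fin n) :
    chr (cm w) k i j = fun x => ric_G (fun l => pd l w x) k i j := by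
  funext x
  have e : ∀ l, (cm w x)⁻¹ k l * (pd i (fun z => cm w z j l) x + pd j (fun z => cm w z i l) x -
      pd l (fun z => cm w z i j) x) = ric_d k l * (2 * (pd i w x * ric_d j l +
        pd j w x * ric_d i l - pd l w x * ric_d i j)) := fun l => by
    rw [ric_inv, ric_pd hw, ric_pd hw, ric_pd hw]
    field_simp
  simp only [chr, e, ric_sum, ric_G, ric_d_comm j k, ric_d_comm i k]
  ring

theorem ric_pd_chr {w : E n → ℝ} (hw : ContDiff ℝ ∞ w) (m k i j : Fin n) (x : E n) :
    pd m (chr (cm w) k i j) x = ric_G (fun l => pd m (pd l w) x) k i j := by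
  have d : ∀ l, HasFDerivAt (pd l w) (fderiv ℝ (pd l w) x) x := fun l =>
    ((smooth_D hw _).differentiable (by simp) x).hasFDerivAt
  have h := (((d j).const_mul (ric_d k i)).fun_add ((d i).const_mul (ric_d k j))).fun_sub
    ((d k).const_mul (ric_d i j))
  rw [ric_chr hw]
  exact (congrArg (fun L : E n →L[ℝ] ℝ => L (EuclideanSpace.single m 1)) h.fderiv).trans rfl

theorem ric_eq {w : E n → ℝ} (hw : ContDiff ℝ ∞ w) (i j : Fin n) (x : E n) :
    ric (cm w) i j x = -((n : ℝ) - 2) * (pd i (pd j w) x - pd i w x * pd j w x) -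
      ric_d i j * (lap w x + ((n : ℝ) - 2) * ∑ l, pd l w x ^ 2) := by
  simp only [ric, ric_pd_chr hw]
  simp only [ric_chr hw]
  exact ric_alg (fun l => pd l w x) (fun i j => pd i (pd j w) x)
    (fun i j => congrFun (D_comm hw _ _) x) i j

theorem ric_D2 {w : E n → ℝ} (hw : ContDiff ℝ ∞ w) (v x : E n) :
    D v (D v w) x = ∑ i, ∑ j, pd i (pd j w) x * v i * v j := by
  rw [D_eq_sum]
  refine Finset.sum_congr rfl fun i _ => ?_
  have e : pd i (D v w) x = D v (pd i w) x := congrFun (D_comm hw _ _) x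
  rw [e, D_eq_sum, Finset.mul_sum]
  refine Finset.sum_congr rfl fun j _ => ?_
  have e' : pd j (pd i w) x = pd i (pd j w) x := congrFun (D_comm hw _ _) x
  rw [e']
  ring

theorem Adm.lin (hn : 3 ≤ n) {ε Λ : ℝ} {w : E n → ℝ} (h : Adm ε Λ w) : Lin w := by
  intro x hx v
  have h1 := h.ricci x hx v
  have hn' : (0 : ℝ) ≤ (n : ℝ) - 2 := by
    have : (3 : ℝ) ≤ n := by exact_mod_cast hn
    linarith
  have e : ∀ i j, ric (cm w) i j x * v i * v j =
      -((n : ℝ) - 2) * (pd i (pd j w) x * v i * v j) +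
        ((n : ℝ) - 2) * ((v i * pd i w x) * (v j * pd j w x)) -
        (lap w x + ((n : ℝ) - 2) * ∑ l, pd l w x ^ 2) * (ric_d i j * (v i * v j)) := fun i j => by
    rw [ric_eq h.smooth]
    ring
  simp only [e, Finset.sum_sub_distrib, Finset.sum_add_distrib, ← Finset.mul_sum, ric_sum,
    ← Finset.sum_mul] at h1
  have h2 := Finset.sum_mul_sq_le_sq_mul_sq Finset.univ (fun i => v i) fun i => pd i w x
  have h3 : ⟪v, v⟫ = ∑ i, v i ^ 2 := by
    rw [real_inner_self_eq_norm_sq, EuclideanSpace.real_norm_sq_eq]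
  have h4 : ∑ i, v i * v i = ∑ i, v i ^ 2 := Finset.sum_congr rfl fun i _ => (sq _).symm
  rw [mu, ric_D2 h.smooth, h3]
  rw [h4] at h1
  nlinarith [mul_le_mul_of_nonneg_left h2 hn']

end Vale.Agent.P242
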