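import Vale.Agent.P242.Core
import Vale.Agent.P242.Flow
import Vale.Agent.P242.Met
import Vale.Agent.P242.Ricci
import Vale.Agent.P242.Lim

namespace Vale.Agent.P242

open MeasureTheory Set Metric Filter Topology

theorem main (n : ℕ) (hn : 3 ≤ n) : ∃ ε : ℝ, 0 < ε ∧ ∀ Λ : ℝ,
    (∃ L ρ : ℝ, 1 ≤ L ∧ 0 < ρ ∧ ∀ w : E n → ℝ, Adm ε Λ w → Chart w L ρ) ∧
    ∀ (X : Type) [MetricSpace X] [ProperSpace X] (p : X) (s : ℝ) (w : ℕ → E n → ℝ)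
      (f : ℕ → E n → X) (δ : ℕ → ℝ), 0 < s → (∀ k, Adm ε Λ (w k)) → Tendsto δ atTop (𝓝 0) →
      (∀ k, Approx (w k) (f k) p s (δ k)) → HasChart n p := by
  obtain ⟨ε, hε, h⟩ := core hn
  refine ⟨ε, hε, fun Λ => ?_⟩
  obtain ⟨R, C, h⟩ := h Λ
  have hL : 1 ≤ Real.exp (2 * |C| + 1) := Real.one_le_exp (by positivity)
  have key : ∀ w : E n → ℝ, Adm ε Λ w → Chart w (Real.exp (2 * |C| + 1)) (1 / 10) := by
    intro w hw
    obtain ⟨Z, a, L, hG⟩ := h w hw.smooth (hw.lin hn) hw.mass hw.l1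
    obtain ⟨η, hη, Φ, G, hF⟩ := hG.flow
    rw [abs_of_nonneg hG.C0] at hL ⊢
    exact hF.chart hw.smooth.continuous hL hη
  exact ⟨⟨_, _, hL, by norm_num, key⟩, fun X _ _ p s w f δ hs hw hδ ha =>
    lim_chart hL (by norm_num) hs (fun k => key _ (hw k)) hδ ha⟩

end Vale.Agent.P242
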