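import Vale.Agent.P242.Defs

/-! P242 MetA (TASK, owner helper5; helper names start with mta_). Lower bound for lengths. `seg`: `w` is bounded on the compact ball, so `Φ` is locally Lipschitz on `ball 0 (4/5)` and `Φ ∘ γ` is Lipschitz on `Icc 0 T` (`LocallyLipschitzOn.exists_lipschitzOnWith_of_compact`). For a unit vector `e` with `⟪e, Φ (γ T) - Φ (γ 0)⟫ = ‖..‖` the real function `t ↦ ⟪e, Φ (γ t)⟫` is absolutely continuous (`LipschitzOnWith.absolutelyContinuousOnInterval`), so it is the integral of its derivative (`AbsolutelyContinuousOnInterval.integral_deriv_eq_sub`). Where `γ` is differentiable (almost everywhere, `LipschitzOnWith.ae_differentiableWithinAt_of_mem` or the real line version) the derivative is at most `A exp (w (γ t)) ‖deriv γ t‖` (`norm_deriv_le_of_lip` type bound with `‖deriv γ t‖ + ε`, or compare slopes in the limit). Finish with `ofReal_integral_norm_eq_lintegral_enorm` / `lintegral_mono_ae`.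
`curve`: if the curve stays in `ball 0 (11/20)` use `seg` with `T = 1`; otherwise take the first `T` with `‖γ T‖ = 11/20` (`IsClosed.csInf_mem`, or `intermediate_value_Icc` on the infimum), `‖Φ (γ T) - Φ (γ 0)‖ ≥ 11/20 - 1/10 - 1/5`. -/

namespace Vale.Agent.P242

open MeasureTheory Set Metric Filter Topology
open scoped ENNReal ContDiff RealInnerProductSpace

variable {n : ℕ}

variable {w : E n → ℝ} {A η : ℝ} {Φ G : E n → E n}

theorem mta_der {f : ℝ → ℝ} {γ : ℝ → E n} {t c : ℝ} (hc : 0 ≤ c) (hγ : DifferentiableAt ℝ γ t)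
    (h : ∀ᶠ s in 𝓝 t, ‖f s - f t‖ ≤ c * ‖γ s - γ t‖) : ‖deriv f t‖ ≤ c * ‖deriv γ t‖ := by
  by_cases hf : DifferentiableAt ℝ f t
  · have h1 := (hasDerivAt_iff_tendsto_slope.1 hf.hasDerivAt).norm
    have h2 := (hasDerivAt_iff_tendsto_slope.1 hγ.hasDerivAt).norm.const_mul c
    refine le_of_tendsto_of_tendsto h1 h2 ?_
    filter_upwards [mem_nhdsWithin_of_mem_nhds h] with s hs
    simp only [slope, vsub_eq_sub, norm_smul]
    rw [mul_left_comm]
    exact mul_le_mul_of_nonneg_left hs (norm_nonneg _)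
  · rw [deriv_zero_of_not_differentiableAt hf, norm_zero]
    positivity

theorem mta_lip (h : FlowD w A η Φ G) (hw : Continuous w) (hA : 0 ≤ A) (hη : 0 < η) :
    LocallyLipschitzOn (ball (0 : E n) (4 / 5)) Φ := by
  obtain ⟨B, hB⟩ := (isCompact_closedBall (0 : E n) 1).exists_bound_of_continuousOn
    (f := fun x => Real.exp (w x)) (by fun_prop)
  intro x hx
  refine ⟨(A * B).toNNReal, ball 0 (4 / 5) ∩ ball x (η / 2),
    inter_mem_nhdsWithin _ (ball_mem_nhds x (half_pos hη)),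
    LipschitzOnWith.of_dist_le_mul fun y hy z hz => ?_⟩
  have h1 : ‖y - z‖ ≤ η := by
    have := dist_triangle_right y z x
    have h2 := mem_ball.1 hy.2
    have h3 := mem_ball.1 hz.2
    rw [← dist_eq_norm]
    linarith
  have h2 : Real.exp (w y) ≤ B := (le_abs_self _).trans
    (hB y (ball_subset_closedBall (ball_subset_ball (by norm_num) hy.1)))
  rw [dist_eq_norm, dist_eq_norm]
  refine (h.up y hy.1 z hz.1 h1).trans (mul_le_mul_of_nonneg_right ?_ (norm_nonneg _))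
  exact (mul_le_mul_of_nonneg_left h2 hA).trans (Real.le_coe_toNNReal _)

theorem FlowD.seg (h : FlowD w A η Φ G) (hw : Continuous w) (hA : 0 ≤ A) (hη : 0 < η)
    {γ : ℝ → E n} {K : NNReal} (hγ : LipschitzOnWith K γ (Icc 0 1)) {T : ℝ} (hT : T ∈ Icc (0 : ℝ) 1)
    (hm : MapsTo γ (Icc 0 T) (ball 0 (4 / 5))) :
    ENNReal.ofReal ‖Φ (γ T) - Φ (γ 0)‖ ≤ ENNReal.ofReal A *
      ∫⁻ t in Icc (0 : ℝ) 1, ENNReal.ofReal (Real.exp (w (γ t)) * ‖deriv γ t‖) := by
  have hs : Icc 0 T ⊆ Icc (0 : ℝ) 1 := Icc_subset_Icc_right hT.2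
  have hc : IsCompact (γ '' Icc 0 T) := isCompact_Icc.image_of_continuousOn
    (hγ.continuousOn.mono hs)
  obtain ⟨K', hK'⟩ := ((mta_lip h hw hA hη).mono
    (image_subset_iff.2 hm)).exists_lipschitzOnWith_of_compact hc
  have h1 : LipschitzOnWith (K' * K) (Φ ∘ γ) (Icc 0 T) :=
    hK'.comp (hγ.mono hs) (mapsTo_image _ _)
  obtain ⟨g, hg1, hg2⟩ := exists_dual_vector'' ℝ (Φ (γ T) - Φ (γ 0))
  have h2 : LipschitzOnWith (‖g‖₊ * (K' * K)) (g ∘ (Φ ∘ γ)) (uIcc 0 T) := by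
    rw [uIcc_of_le hT.1]
    exact g.lipschitz.comp_lipschitzOnWith h1
  have h3 := h2.absolutelyContinuousOnInterval.integral_deriv_eq_sub
  have h4 : ‖Φ (γ T) - Φ (γ 0)‖ = ∫ t in Ioo 0 T, deriv (g ∘ (Φ ∘ γ)) t := by
    rw [← integral_Ioc_eq_integral_Ioo, ← intervalIntegral.integral_of_le hT.1, h3]
    simp only [Function.comp_apply, ← map_sub, hg2]
    rfl
  rw [h4]
  refine (Real.ofReal_le_enorm _).trans ((enorm_integral_le_lintegral_enorm _).trans ?_)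
  rw [← lintegral_const_mul' _ _ ENNReal.ofReal_ne_top]
  refine le_trans ?_ (lintegral_mono_set (Ioo_subset_Icc_self.trans hs))
  refine lintegral_mono_ae ((ae_restrict_iff' measurableSet_Ioo).2 ?_)
  filter_upwards [hγ.ae_differentiableWithinAt_of_mem_real] with t ht ht'
  have h5 : Icc 0 T ∈ 𝓝 t := Icc_mem_nhds ht'.1 ht'.2
  have h6 : DifferentiableAt ℝ γ t :=
    (ht (hs (Ioo_subset_Icc_self ht'))).differentiableAt (mem_of_superset h5 hs)
  rw [← ENNReal.ofReal_mul hA, ← mul_assoc, ← ofReal_norm_eq_enorm]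
  refine ENNReal.ofReal_le_ofReal (mta_der (by positivity) h6 ?_)
  have h7 : ∀ᶠ s in 𝓝 t, γ s ∈ ball (γ t) η := h6.continuousAt (ball_mem_nhds _ hη)
  filter_upwards [h5, h7] with s hs1 hs2
  simp only [Function.comp_apply, ← map_sub]
  refine (g.le_opNorm _).trans ((mul_le_of_le_one_left (norm_nonneg _) hg1).trans ?_)
  rw [norm_sub_rev, norm_sub_rev (γ s)]
  refine h.up _ (hm (Ioo_subset_Icc_self ht')) _ (hm hs1) ?_
  rw [← dist_eq_norm, dist_comm]
  exact (mem_ball.1 hs2).le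

theorem FlowD.curve (h : FlowD w A η Φ G) (hw : Continuous w) (hA : 0 ≤ A) (hη : 0 < η)
    {γ : ℝ → E n} {K : NNReal} (hγ : LipschitzOnWith K γ (Icc 0 1)) (h0 : ‖γ 0‖ ≤ 3 / 10)
    (h1 : ‖Φ (γ 0)‖ ≤ 1 / 5) :
    ENNReal.ofReal (1 / 4) ≤ ENNReal.ofReal A *
        ∫⁻ t in Icc (0 : ℝ) 1, ENNReal.ofReal (Real.exp (w (γ t)) * ‖deriv γ t‖) ∨
      (‖γ 1‖ < 3 / 5 ∧ ENNReal.ofReal ‖Φ (γ 1) - Φ (γ 0)‖ ≤ ENNReal.ofReal A *
        ∫⁻ t in Icc (0 : ℝ) 1, ENNReal.ofReal (Real.exp (w (γ t)) * ‖deriv γ t‖)) := by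
  have hc : ContinuousOn (fun t => ‖γ t‖) (Icc 0 1) := hγ.continuousOn.norm
  have key : ∀ t ∈ Icc (0 : ℝ) 1, 11 / 20 ≤ ‖γ t‖ → ∃ s ∈ Icc 0 t, ‖γ s‖ = 11 / 20 :=
    fun t ht h2 => intermediate_value_Icc ht.1 (hc.mono (Icc_subset_Icc_right ht.2))
      ⟨by linarith, h2⟩
  by_cases hb : ∀ t ∈ Icc (0 : ℝ) 1, ‖γ t‖ < 11 / 20
  · refine Or.inr ⟨by linarith [hb 1 ⟨zero_le_one, le_rfl⟩],
      h.seg hw hA hη hγ ⟨zero_le_one, le_rfl⟩ fun t ht => ?_⟩
    rw [mem_ball_zero_iff]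
    linarith [hb t ht]
  · push Not at hb
    obtain ⟨t₀, ht₀, hb⟩ := hb
    have h2 : IsCompact (Icc (0 : ℝ) 1 ∩ (fun t => ‖γ t‖) ⁻¹' {11 / 20}) :=
      isCompact_Icc.of_isClosed_subset
        (hc.preimage_isClosed_of_isClosed isClosed_Icc isClosed_singleton) inter_subset_left
    obtain ⟨s₀, hs₀, hs₁⟩ := key t₀ ht₀ hb
    obtain ⟨T, ⟨hT, hT'⟩, hl⟩ := h2.exists_isLeast ⟨s₀, ⟨hs₀.1, hs₀.2.trans ht₀.2⟩, hs₁⟩
    have hT'' : ‖γ T‖ = 11 / 20 := hT'
    have h3 : MapsTo γ (Icc 0 T) (ball 0 (4 / 5)) := fun t ht => by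
      rw [mem_ball_zero_iff]
      by_contra h3
      obtain ⟨s, hs, hs'⟩ := key t ⟨ht.1, ht.2.trans hT.2⟩ (by linarith)
      have h4 : T ≤ s := hl ⟨⟨hs.1, hs.2.trans (ht.2.trans hT.2)⟩, hs'⟩
      have h5 : t = T := le_antisymm ht.2 (h4.trans hs.2)
      rw [h5, hT''] at h3
      norm_num at h3
    refine Or.inl (le_trans (ENNReal.ofReal_le_ofReal ?_) (h.seg hw hA hη hγ hT h3))
    have h4 := (h.mv _ (h3 ⟨hT.1, le_rfl⟩)).1
    have h5 := norm_sub_norm_le (Φ (γ T)) (Φ (γ 0))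
    have h6 := norm_sub_norm_le (γ T) (Φ (γ T))
    rw [norm_sub_rev] at h4
    linarith

end Vale.Agent.P242
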