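import Mathlib

namespace Vale.Agent.P242

open MeasureTheory Set Metric
open scoped ENNReal ContDiff

noncomputable section

/-- Euclidean space. -/
abbrev E (n : ℕ) : Type := EuclideanSpace ℝ (Fin n)

variable {n : ℕ}

/-- Coordinate derivative. -/
def pd (i : Fin n) (f : E n → ℝ) (x : E n) : ℝ := fderiv ℝ f x (EuclideanSpace.single i 1)

/-- Euclidean Laplacian. -/
def lap (f : E n → ℝ) (x : E n) : ℝ := ∑ i, pd i (pd i f) x

/-- Christoffel symbols of the metric `g` (upper index `k`). -/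
def chr (g : E n → Matrix (Fin n) (Fin n) ℝ) (k i j : Fin n) (x : E n) : ℝ :=
  (1 / 2) * ∑ l, (g x)⁻¹ k l *
    (pd i (fun z => g z j l) x + pd j (fun z => g z i l) x - pd l (fun z => g z i j) x)

/-- Ricci tensor of the metric `g` in coordinates. -/
def ric (g : E n → Matrix (Fin n) (Fin n) ℝ) (i j : Fin n) (x : E n) : ℝ :=
  ∑ k, (pd k (chr g k i j) x - pd j (chr g k i k) x +
    ∑ l, (chr g k k l x * chr g l i j x - chr g k j l x * chr g l i k x))

/-- The metric `exp (2 w)` times the Euclidean metric. -/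
def cm (w : E n → ℝ) (x : E n) : Matrix (Fin n) (Fin n) ℝ := Real.exp (2 * w x) • 1

/-- Its Riemannian distance on the ball of radius 4: infimum of lengths of Lipschitz curves. -/
def cdist (w : E n → ℝ) (x y : E n) : ℝ≥0∞ :=
  ⨅ (γ : ℝ → E n) (_ : (∃ K, LipschitzOnWith K γ (Icc 0 1)) ∧ MapsTo γ (Icc 0 1) (ball 0 4) ∧
    γ 0 = x ∧ γ 1 = y), ∫⁻ t in Icc (0 : ℝ) 1, ENNReal.ofReal (Real.exp (w (γ t)) * ‖deriv γ t‖)

/-- Smooth conformal factor with nonnegative Ricci curvature on the ball of radius 4, mass of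
`-Δw` at most `ε` and `L¹` norm at most `Λ`. -/
structure Adm (ε Λ : ℝ) (w : E n → ℝ) : Prop where
  smooth : ContDiff ℝ ∞ w
  ricci : ∀ x ∈ ball (0 : E n) 4, ∀ v : E n, 0 ≤ ∑ i, ∑ j, ric (cm w) i j x * v i * v j
  mass : ∫ x in ball (0 : E n) 4, -lap w x ≤ ε
  l1 : ∫ x in ball (0 : E n) 4, |w x| ≤ Λ

/-- An `L`-bi-Lipschitz parametrisation by the Euclidean ball of radius `ρ` whose image contains
the Riemannian ball of radius `ρ / L` about the origin. -/
def Chart (w : E n → ℝ) (L ρ : ℝ) : Prop :=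
  ∃ G : E n → E n, G 0 = 0 ∧ MapsTo G (ball 0 ρ) (ball 0 4) ∧
    (∀ a ∈ ball (0 : E n) ρ, ∀ b ∈ ball (0 : E n) ρ,
      ENNReal.ofReal (‖a - b‖ / L) ≤ cdist w (G a) (G b) ∧
        cdist w (G a) (G b) ≤ ENNReal.ofReal (L * ‖a - b‖)) ∧
    ∀ x ∈ ball (0 : E n) 4, cdist w 0 x < ENNReal.ofReal (ρ / L) → x ∈ G '' ball 0 ρ

/-- `f` is a pointed Gromov-Hausdorff `δ`-approximation from the Riemannian ball of radius `s`
about the origin to the ball about `p`. -/
def Approx {X : Type} [MetricSpace X] (w : E n → ℝ) (f : E n → X) (p : X) (s δ : ℝ) : Prop :=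
  f 0 = p ∧
    (∀ x ∈ ball (0 : E n) 4, ∀ y ∈ ball (0 : E n) 4, cdist w 0 x < ENNReal.ofReal s →
      cdist w 0 y < ENNReal.ofReal s → |dist (f x) (f y) - (cdist w x y).toReal| ≤ δ) ∧
    ∀ q ∈ ball p (s - δ), ∃ x ∈ ball (0 : E n) 4, cdist w 0 x < ENNReal.ofReal s ∧ dist (f x) q ≤ δ

/-- A bi-Lipschitz homeomorphism from an open neighbourhood of `p` onto an open set. -/
def HasChart (n : ℕ) {X : Type} [MetricSpace X] (p : X) : Prop :=
  ∃ (U : Set X) (V : Set (E n)) (F : X → E n) (L : ℝ), IsOpen U ∧ p ∈ U ∧ IsOpen V ∧ BijOn F U V ∧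
    0 < L ∧ ∀ x ∈ U, ∀ z ∈ U, dist x z / L ≤ ‖F x - F z‖ ∧ ‖F x - F z‖ ≤ L * dist x z

end

end Vale.Agent.P242
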